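import Vale.Agent.Lib.P037.PB.Master

namespace Vale.Agent.Lib.P037.PB

open Finset

theorem pB_PQ (m U x Q P : ℝ) (hm : 32 ≤ m) (hU : 1 ≤ U) (h1 : m ^ 17 * U ≤ x)
    (hQm : m * Q = x ^ 2) (hP : P = m ^ 15 * U * x) : 32 * P ≤ Q := by
  have hm0 : 0 < m := by linarith
  have hU0 : 0 < U := by linarith
  have hx0 : 0 < x := lt_of_lt_of_le (by positivity) h1
  have hP0 : 0 ≤ P := by rw [hP]; positivity
  have h3 : m * (m * P) ≤ m * Q := by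
    calc m * (m * P) = (m ^ 17 * U) * x := by rw [hP]; ring
      _ ≤ x * x := by gcongr
      _ = m * Q := by rw [hQm]; ring
  have h4 : m * P ≤ Q := le_of_mul_le_mul_left h3 hm0
  calc 32 * P ≤ m * P := by gcongr
    _ ≤ Q := h4

theorem pB_T (m U x Q : ℝ) (hm : 32 ≤ m) (hU : 1 ≤ U) (h1 : m ^ 17 * U ≤ x)
    (hQm : m * Q = x ^ 2) : x * (m ^ 16 * U) ≤ Q := by
  have hm0 : 0 < m := by linarith
  have hU0 : 0 < U := by linarith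
  have hx0 : 0 < x := lt_of_lt_of_le (by positivity) h1
  have h3 : m * (x * (m ^ 16 * U)) ≤ m * Q := by
    calc m * (x * (m ^ 16 * U)) = (m ^ 17 * U) * x := by ring
      _ ≤ x * x := by gcongr
      _ = m * Q := by rw [hQm]; ring
  exact le_of_mul_le_mul_left h3 hm0

theorem pB_DC (m U x Q DC : ℝ) (hm : 32 ≤ m) (hU : 1 ≤ U) (h1 : m ^ 17 * U ≤ x)
    (h2 : x ≤ 2 * (m ^ 17 * U)) (hQm : m * Q = x ^ 2) (hQ0 : 0 ≤ Q)
    (hT : x * (m ^ 16 * U) ≤ Q)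
    (ec : (x + m ^ 2 * (m ^ 16 * U)) * DC ≤
      (x + m ^ 2 * (m ^ 16 * U)) * (x * (m ^ 16 * U + m ^ 16 * U)) + x ^ 3) : DC ≤ 4 * Q := by
  have hm0 : 0 < m := by linarith
  have hU0 : 0 < U := by linarith
  have hx0 : 0 < x := lt_of_lt_of_le (by positivity) h1
  have hs : 0 < x + m ^ 2 * (m ^ 16 * U) := by positivity
  have h3 : x ^ 3 ≤ (x + m ^ 2 * (m ^ 16 * U)) * (2 * Q) := by
    calc x ^ 3 = x * x ^ 2 := by ring
      _ ≤ (2 * (m ^ 17 * U)) * x ^ 2 := by gcongr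
      _ = (m ^ 2 * (m ^ 16 * U)) * (2 * Q) := by rw [← hQm]; ring
      _ ≤ (x + m ^ 2 * (m ^ 16 * U)) * (2 * Q) := by
          have : m ^ 2 * (m ^ 16 * U) ≤ x + m ^ 2 * (m ^ 16 * U) := by linarith
          gcongr
  have h4 : (x + m ^ 2 * (m ^ 16 * U)) * DC ≤ (x + m ^ 2 * (m ^ 16 * U)) * (4 * Q) := by
    calc (x + m ^ 2 * (m ^ 16 * U)) * DC ≤ _ := ec
      _ ≤ (x + m ^ 2 * (m ^ 16 * U)) * (2 * Q) + (x + m ^ 2 * (m ^ 16 * U)) * (2 * Q) := by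
          have : x * (m ^ 16 * U + m ^ 16 * U) ≤ 2 * Q := by linarith
          gcongr
      _ = (x + m ^ 2 * (m ^ 16 * U)) * (4 * Q) := by ring
  exact le_of_mul_le_mul_left h4 hs

theorem pB_x3 (m U x : ℝ) (hx0 : 0 < x) (h2 : x ≤ 2 * (m ^ 17 * U)) :
    x ^ 3 ≤ 8 * m ^ 51 * U ^ 3 := by
  calc x ^ 3 ≤ (2 * (m ^ 17 * U)) ^ 3 := by gcongr
    _ = 8 * m ^ 51 * U ^ 3 := by ring

theorem pB_d2 (m U x pc d2 N R : ℝ) (hm0 : 0 < m) (hU0 : 0 < U) (hx0 : 0 < x)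
    (hx3 : x ^ 3 ≤ 8 * m ^ 51 * U ^ 3) (hpc : pc ≤ m ^ 2) (hN : 0 ≤ N) (hRx : x ^ 2 * R = N)
    (ed : d2 * (2 * U ^ 2) * (m ^ 16 * U) ≤ pc * N) : x * d2 ≤ 4 * m ^ 37 * R := by
  have h3 : m ^ 2 * (2 * m ^ 14 * U ^ 3 * d2) ≤ m ^ 2 * N := by
    calc m ^ 2 * (2 * m ^ 14 * U ^ 3 * d2) = d2 * (2 * U ^ 2) * (m ^ 16 * U) := by ring
      _ ≤ pc * N := ed
      _ ≤ m ^ 2 * N := by gcongr
  have h4 : 2 * m ^ 14 * U ^ 3 * d2 ≤ N := le_of_mul_le_mul_left h3 (by positivity)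
  have hpos : 0 < 2 * m ^ 14 * U ^ 3 * x ^ 2 := by positivity
  have h5 : (2 * m ^ 14 * U ^ 3 * x ^ 2) * (x * d2) ≤
      (2 * m ^ 14 * U ^ 3 * x ^ 2) * (4 * m ^ 37 * R) := by
    calc (2 * m ^ 14 * U ^ 3 * x ^ 2) * (x * d2) = x ^ 3 * (2 * m ^ 14 * U ^ 3 * d2) := by ring
      _ ≤ x ^ 3 * N := by gcongr
      _ ≤ (8 * m ^ 51 * U ^ 3) * N := by gcongr
      _ = (8 * m ^ 51 * U ^ 3) * (x ^ 2 * R) := by rw [hRx]
      _ = (2 * m ^ 14 * U ^ 3 * x ^ 2) * (4 * m ^ 37 * R) := by ring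
  exact le_of_mul_le_mul_left h5 hpos

theorem pB_d3 (m x KP d3 Q : ℝ) (hm : 32 ≤ m) (hx0 : 0 < x) (hQ0 : 0 ≤ Q)
    (hQm : m * Q = x ^ 2) (hKpc : KP ≤ 2 * m ^ 6) (ee : m ^ 8 * d3 ≤ KP * x) : x * d3 ≤ Q := by
  have hm0 : 0 < m := by linarith
  have h3 : m ^ 6 * (m ^ 2 * d3) ≤ m ^ 6 * (2 * x) := by
    calc m ^ 6 * (m ^ 2 * d3) = m ^ 8 * d3 := by ring
      _ ≤ KP * x := ee
      _ ≤ (2 * m ^ 6) * x := by gcongr
      _ = m ^ 6 * (2 * x) := by ring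
  have h4 : m ^ 2 * d3 ≤ 2 * x := le_of_mul_le_mul_left h3 (by positivity)
  have h5 : m ^ 2 * (x * d3) ≤ m ^ 2 * Q := by
    calc m ^ 2 * (x * d3) = x * (m ^ 2 * d3) := by ring
      _ ≤ x * (2 * x) := by gcongr
      _ = 2 * (m * Q) := by rw [hQm]; ring
      _ ≤ m * (m * Q) := by
          have : 0 ≤ m * Q := by positivity
          nlinarith
      _ = m ^ 2 * Q := by ring
  exact le_of_mul_le_mul_left h5 (by positivity)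

theorem pB_d4 (m U x KP d4 N R : ℝ) (hm0 : 0 < m) (hU0 : 0 < U) (hx0 : 0 < x)
    (hx3 : x ^ 3 ≤ 8 * m ^ 51 * U ^ 3) (hKP0 : 0 ≤ KP) (hKpc : KP ≤ 2 * m ^ 6) (hN : 0 ≤ N)
    (hRx : x ^ 2 * R = N)
    (ef : d4 * (2 * U) ^ 2 * (m ^ 16 * U) ≤ KP ^ 2 * (2 * N)) : x * d4 ≤ 16 * m ^ 47 * R := by
  have h3 : (4 * m ^ 12) * (m ^ 4 * U ^ 3 * d4) ≤ (4 * m ^ 12) * (2 * N) := by
    calc (4 * m ^ 12) * (m ^ 4 * U ^ 3 * d4) = d4 * (2 * U) ^ 2 * (m ^ 16 * U) := by ring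
      _ ≤ KP ^ 2 * (2 * N) := ef
      _ ≤ (2 * m ^ 6) ^ 2 * (2 * N) := by gcongr
      _ = (4 * m ^ 12) * (2 * N) := by ring
  have h4 : m ^ 4 * U ^ 3 * d4 ≤ 2 * N := le_of_mul_le_mul_left h3 (by positivity)
  have hpos : 0 < m ^ 4 * U ^ 3 * x ^ 2 := by positivity
  have h5 : (m ^ 4 * U ^ 3 * x ^ 2) * (x * d4) ≤ (m ^ 4 * U ^ 3 * x ^ 2) * (16 * m ^ 47 * R) := by
    calc (m ^ 4 * U ^ 3 * x ^ 2) * (x * d4) = x ^ 3 * (m ^ 4 * U ^ 3 * d4) := by ring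
      _ ≤ x ^ 3 * (2 * N) := by gcongr
      _ ≤ (8 * m ^ 51 * U ^ 3) * (2 * N) := by gcongr
      _ = (8 * m ^ 51 * U ^ 3) * (2 * (x ^ 2 * R)) := by rw [hRx]
      _ = (m ^ 4 * U ^ 3 * x ^ 2) * (16 * m ^ 47 * R) := by ring
  exact le_of_mul_le_mul_left h5 hpos

theorem pB_t7 (m U x KP w P : ℝ) (hm1 : 1 ≤ m) (hU0 : 0 < U) (hx0 : 0 < x) (hw00 : 0 < w)
    (hKP0 : 0 ≤ KP) (hKpc : KP ≤ 2 * m ^ 6) (hw : w ≤ m ^ 8 * (4 * U))
    (hP : P = m ^ 15 * U * x) : KP * x * w ≤ 8 * P := by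
  have hm0 : 0 < m := by linarith
  calc KP * x * w ≤ (2 * m ^ 6) * x * (m ^ 8 * (4 * U)) := by gcongr
    _ = 8 * (m ^ 14 * U * x) := by ring
    _ ≤ 8 * (m ^ 15 * U * x) := by
        have : m ^ 14 ≤ m ^ 15 := pow_le_pow_right₀ hm1 (by norm_num)
        gcongr
    _ = 8 * P := by rw [hP]

theorem pB_t9 (m U x w pc P : ℝ) (hm1 : 1 ≤ m) (hU0 : 0 < U) (hx0 : 0 < x) (hw00 : 0 < w)
    (hpc0 : 0 ≤ pc) (hpc : pc ≤ m ^ 2) (hP : P = m ^ 15 * U * x)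
    (t8 : pc * x * (m ^ 13 * U) ≤ P) :
    pc * x * (m ^ 13 * U * (w + 4 * U) + 2 * U ^ 2) ≤ (w + 4 * U) * (2 * P) := by
  have hm0 : 0 < m := by linarith
  have h3 : pc * x * (2 * U ^ 2) ≤ (w + 4 * U) * P := by
    calc pc * x * (2 * U ^ 2) ≤ m ^ 2 * x * (2 * U ^ 2) := by gcongr
      _ = (2 * U) * (m ^ 2 * U * x) := by ring
      _ ≤ (w + 4 * U) * (m ^ 15 * U * x) := by
          have h4 : m ^ 2 ≤ m ^ 15 := pow_le_pow_right₀ hm1 (by norm_num)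
          have h5 : 2 * U ≤ w + 4 * U := by linarith
          gcongr
      _ = (w + 4 * U) * P := by rw [hP]
  calc pc * x * (m ^ 13 * U * (w + 4 * U) + 2 * U ^ 2)
      = (w + 4 * U) * (pc * x * (m ^ 13 * U)) + pc * x * (2 * U ^ 2) := by ring
    _ ≤ (w + 4 * U) * P + (w + 4 * U) * P := by gcongr
    _ = (w + 4 * U) * (2 * P) := by ring

/-- pure real arithmetic behind `main_boundB`. -/
theorem paramsB_real (m U x K w pc DC d2 d3 d4 N H : ℝ) (hm : 32 ≤ m) (hU : 1 ≤ U)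
    (h1 : m ^ 17 * U ≤ x) (h2 : x ≤ 2 * (m ^ 17 * U))
    (hK0 : 0 ≤ K) (hK : K ≤ 2 * m ^ 4) (hw0 : 4 * U ≤ w) (hw : w ≤ m ^ 8 * (4 * U))
    (hpc0 : 0 ≤ pc) (hpc : pc ≤ m ^ 2) (hDC : 0 ≤ DC) (hd2 : 0 ≤ d2) (hd3 : 0 ≤ d3) (hd4 : 0 ≤ d4)
    (hN : 0 ≤ N)
    (ec : (x + m ^ 2 * (m ^ 16 * U)) * DC ≤
      (x + m ^ 2 * (m ^ 16 * U)) * (x * (m ^ 16 * U + m ^ 16 * U)) + x ^ 3)
    (ed : d2 * (2 * U ^ 2) * (m ^ 16 * U) ≤ pc * N)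
    (ee : m ^ 8 * d3 ≤ K * pc * x)
    (ef : d4 * (2 * U) ^ 2 * (m ^ 16 * U) ≤ (K * pc) ^ 2 * (2 * N))
    (eg : (w + 4 * U) * H ≤
      (w + 4 * U) * (DC + K * pc * (16 * m ^ 9 * U) * x + x * (m ^ 16 * U + m ^ 16 * U)
        + x * (m ^ 16 * U + d2 + d3 + d4) + K * pc * x * w + pc * x * (m ^ 13 * U))
      + pc * x * (m ^ 13 * U * (w + 4 * U) + 2 * U ^ 2)) :
    H ≤ 20 * x ^ 2 / m + 100 * m ^ 47 * N / x ^ 2 := by
  have hm0 : 0 < m := by linarith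
  have hm1 : 1 ≤ m := by linarith
  have hU0 : 0 < U := by linarith
  have hx0 : 0 < x := lt_of_lt_of_le (by positivity) h1
  have hx2 : 0 < x ^ 2 := by positivity
  have hw00 : 0 < w := by linarith
  obtain ⟨Q, hQ⟩ : ∃ Q, Q = x ^ 2 / m := ⟨_, rfl⟩
  obtain ⟨P, hP⟩ : ∃ P, P = m ^ 15 * U * x := ⟨_, rfl⟩
  obtain ⟨R, hR⟩ : ∃ R, R = N / x ^ 2 := ⟨_, rfl⟩
  have hR0 : 0 ≤ R := by rw [hR]; positivity
  have hP0 : 0 ≤ P := by rw [hP]; positivity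
  have hQ0 : 0 ≤ Q := by rw [hQ]; positivity
  have hRx : x ^ 2 * R = N := by rw [hR]; field_simp
  have hQm : m * Q = x ^ 2 := by rw [hQ]; field_simp
  have hPQ : 32 * P ≤ Q := pB_PQ m U x Q P hm hU h1 hQm hP
  have hT : x * (m ^ 16 * U) ≤ Q := pB_T m U x Q hm hU h1 hQm
  have tDC : DC ≤ 4 * Q := pB_DC m U x Q DC hm hU h1 h2 hQm hQ0 hT ec
  have hKpc : K * pc ≤ 2 * m ^ 6 := by
    calc K * pc ≤ (2 * m ^ 4) * m ^ 2 := by gcongr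
      _ = 2 * m ^ 6 := by ring
  have hKpc0 : 0 ≤ K * pc := by positivity
  have t1 : K * pc * (16 * m ^ 9 * U) * x ≤ 32 * P := by
    calc K * pc * (16 * m ^ 9 * U) * x ≤ (2 * m ^ 6) * (16 * m ^ 9 * U) * x := by gcongr
      _ = 32 * P := by rw [hP]; ring
  have hx3 : x ^ 3 ≤ 8 * m ^ 51 * U ^ 3 := pB_x3 m U x hx0 h2
  have t4 : x * d2 ≤ 4 * m ^ 37 * R := pB_d2 m U x pc d2 N R hm0 hU0 hx0 hx3 hpc hN hRx ed
  have t5 : x * d3 ≤ Q := pB_d3 m x (K * pc) d3 Q hm hx0 hQ0 hQm hKpc ee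
  have t6 : x * d4 ≤ 16 * m ^ 47 * R :=
    pB_d4 m U x (K * pc) d4 N R hm0 hU0 hx0 hx3 hKpc0 hKpc hN hRx ef
  have t7 : K * pc * x * w ≤ 8 * P := pB_t7 m U x (K * pc) w P hm1 hU0 hx0 hw00 hKpc0 hKpc hw hP
  have t8 : pc * x * (m ^ 13 * U) ≤ P := by
    calc pc * x * (m ^ 13 * U) ≤ m ^ 2 * x * (m ^ 13 * U) := by gcongr
      _ = P := by rw [hP]; ring
  have t9 := pB_t9 m U x w pc P hm1 hU0 hx0 hw00 hpc0 hpc hP t8
  have hwU : 0 < w + 4 * U := by positivity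
  have a1 : x * (m ^ 16 * U + m ^ 16 * U) ≤ 2 * Q := by linarith
  have a2 : x * (m ^ 16 * U + d2 + d3 + d4) ≤ Q + 4 * m ^ 37 * R + Q + 16 * m ^ 47 * R := by
    calc x * (m ^ 16 * U + d2 + d3 + d4)
        = x * (m ^ 16 * U) + x * d2 + x * d3 + x * d4 := by ring
      _ ≤ _ := by linarith
  have a3 : DC + K * pc * (16 * m ^ 9 * U) * x + x * (m ^ 16 * U + m ^ 16 * U)
        + x * (m ^ 16 * U + d2 + d3 + d4) + K * pc * x * w + pc * x * (m ^ 13 * U) ≤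
      8 * Q + 41 * P + 4 * m ^ 37 * R + 16 * m ^ 47 * R := by linarith
  have hfin : (w + 4 * U) * H ≤
      (w + 4 * U) * (8 * Q + 43 * P + 4 * m ^ 37 * R + 16 * m ^ 47 * R) := by
    calc (w + 4 * U) * H ≤ _ := eg
      _ ≤ (w + 4 * U) * (8 * Q + 41 * P + 4 * m ^ 37 * R + 16 * m ^ 47 * R)
            + (w + 4 * U) * (2 * P) :=
          add_le_add (mul_le_mul_of_nonneg_left a3 hwU.le) t9
      _ = (w + 4 * U) * (8 * Q + 43 * P + 4 * m ^ 37 * R + 16 * m ^ 47 * R) := by ring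
  have hH : H ≤ 8 * Q + 43 * P + 4 * m ^ 37 * R + 16 * m ^ 47 * R :=
    le_of_mul_le_mul_left hfin hwU
  have hm37 : m ^ 37 ≤ m ^ 47 := pow_le_pow_right₀ hm1 (by norm_num)
  have hfin2 : 4 * m ^ 37 * R ≤ 4 * m ^ 47 * R := by gcongr
  have hpos47 : 0 ≤ m ^ 47 * R := by positivity
  have g1 : 20 * x ^ 2 / m = 20 * Q := by rw [hQ]; ring
  have g2 : 100 * m ^ 47 * N / x ^ 2 = 100 * (m ^ 47 * R) := by rw [hR]; ring
  rw [g1, g2]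
  linarith

/-- Blueprint (b), parameters: `masterB` with `t = M^13 u, h = 16 M^9 u, W = 4 u, q = M^8,
M2 = 2 u^2, e = 2 u, d1 = m = M^16 u, p = M^2`. -/
theorem main_boundB (M u n : ℕ) (hM : 32 ≤ M) (hu : 1 ≤ u) (h1 : M ^ 17 * u ≤ n)
    (h2 : n < 2 * (M ^ 17 * u)) (A : ℕ → ℕ → Bool) :
    ∃ B : ℕ → ℕ → Bool, free2 n true true true false B ∧
      (hamN n A B : ℝ) ≤ 20 * (n : ℝ) ^ 2 / M
        + 100 * (M : ℝ) ^ 47 * ((copies2 n true true true false A).card : ℝ) / (n : ℝ) ^ 2 := by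
  have hMp : 0 < M := by omega
  have hup : 0 < u := hu
  have hsub1 : M ^ 8 * (4 * u) ≤ M ^ 9 * u := by
    calc M ^ 8 * (4 * u) = 4 * (M ^ 8 * u) := by ring
      _ ≤ M * (M ^ 8 * u) := Nat.mul_le_mul_right _ (by omega)
      _ = M ^ 9 * u := by ring
  have hu9 : u ≤ M ^ 9 * u := Nat.le_mul_of_pos_left _ (by positivity)
  have hWe : 4 * u - 2 * u = 2 * u := by omega
  obtain ⟨B, hB, w1, pc, DC, dl2, dl3, dl1, hw0, hw, hpc, ec, ed, ee, ef, eg⟩ :=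
    masterB n (M ^ 13 * u) (16 * M ^ 9 * u) (4 * u) (M ^ 8) (2 * u ^ 2) (2 * u) (M ^ 16 * u)
      (M ^ 16 * u) (M ^ 2)
      (Nat.succ_le_of_lt (by positivity)) (Nat.succ_le_of_lt (by positivity))
      (Nat.succ_le_of_lt (by positivity)) (Nat.succ_le_of_lt (by positivity))
      (le_of_eq (by ring))
      (by
        have h3 : u ≤ 16 * M ^ 9 * u - M ^ 8 * (4 * u) := by
          have : 16 * M ^ 9 * u = 16 * (M ^ 9 * u) := by ring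
          omega
        calc 2 * u ^ 2 ≤ u * (4 * u) := by nlinarith
          _ ≤ (16 * M ^ 9 * u - M ^ 8 * (4 * u)) * (4 * u) := Nat.mul_le_mul_right _ h3)
      (by
        have h3 : u ≤ 16 * M ^ 9 * u - 2 * (M ^ 8 * (4 * u)) := by
          have : 16 * M ^ 9 * u = 16 * (M ^ 9 * u) := by ring
          omega
        rw [hWe]
        calc (2 * u) ^ 2 ≤ 2 * (u * (4 * u)) := by nlinarith
          _ ≤ 2 * ((16 * M ^ 9 * u - 2 * (M ^ 8 * (4 * u))) * (4 * u)) :=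
            Nat.mul_le_mul_left _ (Nat.mul_le_mul_right _ h3)) A
  refine ⟨B, hB, ?_⟩
  rw [hWe] at ef
  have hK : n / (M ^ 13 * u) + 1 ≤ 2 * M ^ 4 := by
    have : n / (M ^ 13 * u) < 2 * M ^ 4 := by
      rw [Nat.div_lt_iff_lt_mul (by positivity)]
      calc n < 2 * (M ^ 17 * u) := h2
        _ = 2 * M ^ 4 * (M ^ 13 * u) := by ring
    omega
  generalize n / (M ^ 13 * u) + 1 = K at ee ef eg hK
  have hMr : (32 : ℝ) ≤ M := by exact_mod_cast hM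
  have hur : (1 : ℝ) ≤ u := by exact_mod_cast hu
  unfold NB at ed ef
  refine paramsB_real (M : ℝ) (u : ℝ) (n : ℝ) (K : ℝ) (w1 : ℝ) (pc : ℝ) (DC : ℝ) (dl2 : ℝ)
    (dl3 : ℝ) (dl1 : ℝ) ((copies2 n true true true false A).card : ℝ) (hamN n A B : ℝ) hMr hur
    ?_ ?_ (by positivity) ?_ ?_ ?_ (by positivity) ?_ (by positivity) (by positivity)
    (by positivity) (by positivity) (by positivity) ?_ ?_ ?_ ?_ ?_
  · exact_mod_cast h1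
  · exact_mod_cast h2.le
  · exact_mod_cast hK
  · exact_mod_cast hw0
  · exact_mod_cast hw
  · exact_mod_cast hpc
  · exact_mod_cast ec
  · exact_mod_cast ed
  · exact_mod_cast ee
  · exact_mod_cast ef
  · exact_mod_cast eg

theorem RP_B : RP !![true, true; true, false] :=
  RP_of_bound true true true false 17 47 32 20 100 (by norm_num) (by norm_num)
    (fun M u n hM0 _ hu h1 h2 A => main_boundB M u n hM0 hu h1 h2 A)

end Vale.Agent.Lib.P037.PB
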