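import Vale.Agent.Lib.P037.PB.Cert

namespace Vale.Agent.Lib.P037.PB

open Finset

/-- counting by a cover with small pieces -/
theorem card_le_of_cover_acc1 {α β : Type*} [DecidableEq α] (S : Finset α) (U : Finset β)
    (G : β → Finset α) (b : ℕ) (h1 : ∀ x ∈ S, ∃ y ∈ U, x ∈ G y) (h2 : ∀ y ∈ U, (G y).card ≤ b) :
    S.card ≤ U.card * b := by
  have hsub : S ⊆ U.biUnion G := by
    intro x hx
    obtain ⟨y, hy, hxy⟩ := h1 x hx
    exact Finset.mem_biUnion.2 ⟨y, hy, hxy⟩
  calc S.card ≤ (U.biUnion G).card := Finset.card_le_card hsub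
    _ ≤ ∑ y ∈ U, (G y).card := Finset.card_biUnion_le
    _ ≤ ∑ _y ∈ U, b := Finset.sum_le_sum h2
    _ = U.card * b := by rw [Finset.sum_const, smul_eq_mul]

theorem mem_cl_self_acc1 (n t : ℕ) (st : ℕ → ℕ) {r : ℕ} (hr : r < n) :
    r ∈ cl n t st (r / t) (st r) :=
  Finset.mem_filter.2 ⟨Finset.mem_filter.2 ⟨Finset.mem_range.2 hr, rfl⟩, rfl⟩

/-- entries in rows of light classes. -/
theorem E2_card {n t h w1 W M2 d1 : ℕ} {A : ℕ → ℕ → Bool} {st : ℕ → ℕ} {P Del : Finset ℕ}
    (X : Ctx n t h w1 W M2 d1 A st P Del) :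
    ((range n ×ˢ range n).filter fun x =>
      st x.1 ∈ P ∧ (cl n t st (x.1 / t) (st x.1)).card < h).card
      ≤ (n / t + 1) * P.card * h * n := by
  have key := card_le_of_cover_acc1
    ((range n ×ˢ range n).filter fun x =>
      st x.1 ∈ P ∧ (cl n t st (x.1 / t) (st x.1)).card < h)
    (range (n / t + 1) ×ˢ P)
    (fun y => if (cl n t st y.1 y.2).card < h then cl n t st y.1 y.2 ×ˢ range n else ∅)
    (h * n) ?_ ?_
  · rw [Finset.card_product, Finset.card_range] at key
    calc _ ≤ (n / t + 1) * P.card * (h * n) := key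
      _ = (n / t + 1) * P.card * h * n := by ring
  · intro x hx
    obtain ⟨hx1, hx2, hx3⟩ := Finset.mem_filter.1 hx
    obtain ⟨hr, hc⟩ := Finset.mem_product.1 hx1
    have hr' := Finset.mem_range.1 hr
    refine ⟨(x.1 / t, st x.1), Finset.mem_product.2 ⟨Finset.mem_range.2 ?_, hx2⟩, ?_⟩
    · exact Nat.lt_succ_of_le (Nat.div_le_div_right hr'.le)
    · simp only [if_pos hx3]
      exact Finset.mem_product.2 ⟨mem_cl_self_acc1 n t st hr', hc⟩
  · intro y _
    split_ifs with hy
    · rw [Finset.card_product, Finset.card_range]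
      exact Nat.mul_le_mul_right _ hy.le
    · simp

/-- ones before the start of the row. -/
theorem E3_card (n m' : ℕ) (A : ℕ → ℕ → Bool) (st : ℕ → ℕ) (P : Finset ℕ)
    (hpre : ∀ r, r < n → st r ∈ P → ((range (st r)).filter fun c => A r c = true).card ≤ m') :
    ((range n ×ˢ range n).filter fun x =>
      st x.1 ∈ P ∧ x.2 < st x.1 ∧ A x.1 x.2 = true).card ≤ n * m' := by
  have key := card_le_of_cover_acc1
    ((range n ×ˢ range n).filter fun x => st x.1 ∈ P ∧ x.2 < st x.1 ∧ A x.1 x.2 = true)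
    (range n)
    (fun r => if st r ∈ P then
      ((range (st r)).filter fun c => A r c = true).image (fun c => (r, c)) else ∅)
    m' ?_ ?_
  · rwa [Finset.card_range] at key
  · intro x hx
    obtain ⟨hx1, hx2, hx3, hx4⟩ := Finset.mem_filter.1 hx
    obtain ⟨hr, -⟩ := Finset.mem_product.1 hx1
    refine ⟨x.1, hr, ?_⟩
    simp only [if_pos hx2]
    exact Finset.mem_image.2 ⟨x.2, Finset.mem_filter.2 ⟨Finset.mem_range.2 hx3, hx4⟩, rfl⟩
  · intro r hr
    split_ifs with hy
    · exact Finset.card_image_le.trans (hpre r (Finset.mem_range.1 hr) hy)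
    · simp

/-- entries in deleted columns. -/
theorem E4_card (n : ℕ) (Del : Finset ℕ) :
    ((range n ×ˢ range n).filter fun x => x.2 ∈ Del).card ≤ n * Del.card := by
  have hsub : ((range n ×ˢ range n).filter fun x => x.2 ∈ Del) ⊆ range n ×ˢ Del := by
    intro x hx
    obtain ⟨hx1, hx2⟩ := Finset.mem_filter.1 hx
    exact Finset.mem_product.2 ⟨(Finset.mem_product.1 hx1).1, hx2⟩
  calc _ ≤ (range n ×ˢ Del).card := Finset.card_le_card hsub
    _ = n * Del.card := by rw [Finset.card_product, Finset.card_range]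

/-- zeros of `A` inside the class rows. -/
theorem E5_card {n t h w1 W M2 d1 : ℕ} {A : ℕ → ℕ → Bool} {st : ℕ → ℕ} {P Del : Finset ℕ}
    (X : Ctx n t h w1 W M2 d1 A st P Del) :
    ((range n ×ˢ range n).filter fun x =>
      x.2 ∈ Yc n t h w1 st A Del (x.1 / t) (st x.1) ∧ A x.1 x.2 = false).card
      ≤ (n / t + 1) * P.card * n * w1 := by
  have key := card_le_of_cover_acc1
    ((range n ×ˢ range n).filter fun x =>
      x.2 ∈ Yc n t h w1 st A Del (x.1 / t) (st x.1) ∧ A x.1 x.2 = false)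
    ((range (n / t + 1) ×ˢ P) ×ˢ range n)
    (fun y => if zt n t st A y.1.1 y.1.2 y.2 < w1 then
      ((cl n t st y.1.1 y.1.2).filter fun r => A r y.2 = false).image (fun r => (r, y.2)) else ∅)
    w1 ?_ ?_
  · rwa [Finset.card_product, Finset.card_product, Finset.card_range, Finset.card_range] at key
  · intro x hx
    obtain ⟨hx1, hx2, hx3⟩ := Finset.mem_filter.1 hx
    obtain ⟨hr, hc⟩ := Finset.mem_product.1 hx1
    obtain ⟨hg, hj⟩ := X.pivot_of_mem hx2
    obtain ⟨-, -, -, -, hz⟩ := mem_Yc.1 hx2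
    refine ⟨((x.1 / t, st x.1), x.2),
      Finset.mem_product.2 ⟨Finset.mem_product.2 ⟨Finset.mem_range.2 hj, hg⟩, hc⟩, ?_⟩
    simp only [if_pos hz]
    exact Finset.mem_image.2 ⟨x.1,
      Finset.mem_filter.2 ⟨mem_cl_self_acc1 n t st (Finset.mem_range.1 hr), hx3⟩, rfl⟩
  · intro y _
    split_ifs with hy
    · exact Finset.card_image_le.trans hy.le
    · simp

end Vale.Agent.Lib.P037.PB
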