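import Vale.Agent.Lib.P037.PB.Cert

namespace Vale.Agent.Lib.P037.PB

open Finset

/-- Blueprint (b), (M): class rows of one pivot increase with time (on heavy classes). -/
theorem Yc_mono {n t h w1 W M2 d1 : ℕ} {A : ℕ → ℕ → Bool} {st : ℕ → ℕ} {P Del : Finset ℕ}
    (X : Ctx n t h w1 W M2 d1 A st P Del) (hM2 : M2 ≤ (h - w1) * (w1 + W))
    {j j' g : ℕ} (hj : j < j') (hheavy : h ≤ (cl n t st j' g).card) :
    Yc n t h w1 st A Del j g ⊆ Yc n t h w1 st A Del j' g := by
  classical
  intro c hc
  have hg := (X.pivot_of_mem hc).1
  obtain ⟨hh, hcn, hgc, hcD, hz⟩ := mem_Yc.mp hc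
  refine mem_Yc.mpr ⟨hheavy, hcn, hgc, hcD, ?_⟩
  have hone : ∀ x ∈ cl n t st j g, A x g = true := X.pivot_one hg
  have hone' : ∀ x ∈ cl n t st j' g, A x g = true := X.pivot_one hg
  rcases Nat.eq_or_lt_of_le hgc with hgc' | hgc'
  · -- `c = g`
    have h0 : zt n t st A j' g c = 0 := by
      rw [zt, card_eq_zero, filter_eq_empty_iff]
      intro x hx
      rw [← hgc', hone' x hx]
      simp
    have := X.hw1
    omega
  · rcases X.hD3 j' g c hg hcn hcD with h1 | h1
    · exact h1
    · exfalso
      have hlt := X.hD2 g hg c hcn hgc' hcD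
      have hge := ncol_ge_of_lt n A (cl n t st j g) (cl n t st j' g) (cl_subset_range n t st j g)
        (cl_subset_range n t st j' g) (cl_lt_cl n t X.ht st hj) g c
      have hA : h - w1 ≤ ((cl n t st j g).filter fun x => A x g = true ∧ A x c = true).card := by
        have hsub : cl n t st j g ⊆ ((cl n t st j g).filter fun x => A x g = true ∧ A x c = true) ∪
            ((cl n t st j g).filter fun x => A x c = false) := by
          intro x hx
          rw [mem_union, mem_filter, mem_filter]
          cases hxc : A x c with
          | false => exact Or.inr ⟨hx, rfl⟩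
          | true => exact Or.inl ⟨hx, hone x hx, rfl⟩
        have h2 := (card_le_card hsub).trans (card_union_le _ _)
        have h3 : ((cl n t st j g).filter fun x => A x c = false).card < w1 := hz
        omega
      have hB : w1 + W ≤
          ((cl n t st j' g).filter fun y => A y g = true ∧ A y c = false).card := by
        have hsub : ((cl n t st j' g).filter fun y => A y c = false) ⊆
            ((cl n t st j' g).filter fun y => A y g = true ∧ A y c = false) := by
          intro x hx
          rw [mem_filter] at hx ⊢
          exact ⟨hx.1, hone' x hx.1, hx.2⟩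
        exact le_trans h1 (card_le_card hsub)
      have := Nat.mul_le_mul hA hB
      omega

end Vale.Agent.Lib.P037.PB
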