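import Vale.Agent.Lib.P037.PB.Closure
import Vale.Agent.Lib.P037.PB.Mono

namespace Vale.Agent.Lib.P037.PB

open Finset

theorem Bm_eq_true_iff {t : ℕ} {st : ℕ → ℕ} {Y : ℕ → ℕ → Finset ℕ} {r c : ℕ} :
    Bm t st Y r c = true ↔ InCl Y (r / t) (st r) c := by
  classical
  unfold Bm
  exact decide_eq_true_iff

/-- two rows of the same fibre lie in the same strip. -/
theorem E6_same_strip {n t h w1 W M2 d1 : ℕ} {A : ℕ → ℕ → Bool} {st : ℕ → ℕ} {P Del : Finset ℕ}
    (X : Ctx n t h w1 W M2 d1 A st P Del) (hM2 : M2 ≤ (h - w1) * (w1 + W))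
    (hc : PCross (Yc n t h w1 st A Del)) {g c j j' : ℕ}
    (h1 : InCl (Yc n t h w1 st A Del) j g c)
    (h2 : InCl (Yc n t h w1 st A Del) j' g c) (h2' : c ∉ Yc n t h w1 st A Del j' g) :
    ¬ j < j' := by
  intro hj
  obtain ⟨c0, hc0, -⟩ := h2
  have hheavy : h ≤ (cl n t st j' g).card := (mem_Yc.1 hc0).1
  exact h2' (closure_sub _ hc hj (Yc_mono X hM2 hj hheavy) h1)

/-- entries added by the closure: for fixed `(g,c)` they all lie in one strip. -/
theorem E6_card {n t h w1 W M2 d1 : ℕ} {A : ℕ → ℕ → Bool} {st : ℕ → ℕ} {P Del : Finset ℕ}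
    (X : Ctx n t h w1 W M2 d1 A st P Del) (hM2 : M2 ≤ (h - w1) * (w1 + W))
    (hc : PCross (Yc n t h w1 st A Del)) :
    ((range n ×ˢ range n).filter fun x =>
      Bm t st (Yc n t h w1 st A Del) x.1 x.2 = true ∧
        x.2 ∉ Yc n t h w1 st A Del (x.1 / t) (st x.1)).card
      ≤ P.card * n * t := by
  set E := (range n ×ˢ range n).filter fun x =>
      Bm t st (Yc n t h w1 st A Del) x.1 x.2 = true ∧
        x.2 ∉ Yc n t h w1 st A Del (x.1 / t) (st x.1) with hE
  have hmem : ∀ x, x ∈ E ↔ (x.1 < n ∧ x.2 < n) ∧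
      InCl (Yc n t h w1 st A Del) (x.1 / t) (st x.1) x.2 ∧
        x.2 ∉ Yc n t h w1 st A Del (x.1 / t) (st x.1) := by
    intro x
    rw [hE, mem_filter, mem_product, mem_range, mem_range, Bm_eq_true_iff]
  have himg : E.image (fun x => (st x.1, x.2)) ⊆ P ×ˢ range n := by
    intro y hy
    obtain ⟨x, hx, rfl⟩ := mem_image.1 hy
    rw [hmem] at hx
    obtain ⟨c0, hc0, -⟩ := hx.2.1
    rw [mem_product, mem_range]
    exact ⟨(X.pivot_of_mem hc0).1, hx.1.2⟩
  have hfib : ∀ a ∈ E.image (fun x => (st x.1, x.2)),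
      (E.filter fun x => (st x.1, x.2) = a).card ≤ t := by
    intro a ha
    obtain ⟨x0, hx0, rfl⟩ := mem_image.1 ha
    refine le_trans ?_ (card_strip_le n t (x0.1 / t) X.ht)
    apply card_le_card_of_injOn (fun x => x.1)
    · intro x hx
      rw [mem_coe, mem_filter, Prod.mk.injEq] at hx
      have hx1 := (hmem x).1 hx.1
      have hx2 := (hmem x0).1 hx0
      rw [hx.2.1, hx.2.2] at hx1
      have n1 := E6_same_strip X hM2 hc hx1.2.1 hx2.2.1 hx2.2.2
      have n2 := E6_same_strip X hM2 hc hx2.2.1 hx1.2.1 hx1.2.2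
      rw [mem_coe]
      unfold strip
      rw [mem_filter, mem_range]
      exact ⟨hx1.1.1, le_antisymm (not_lt.1 n2) (not_lt.1 n1)⟩
    · intro x hx y hy hxy
      rw [mem_coe, mem_filter, Prod.mk.injEq] at hx hy
      exact Prod.ext hxy (hx.2.2.trans hy.2.2.symm)
  calc E.card ≤ t * (E.image (fun x => (st x.1, x.2))).card := card_le_mul_card_image E t hfib
    _ ≤ t * (P ×ˢ range n).card := Nat.mul_le_mul_left _ (card_le_card himg)
    _ = P.card * n * t := by rw [card_product, card_range, mul_comm]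

end Vale.Agent.Lib.P037.PB
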