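import Vale.Agent.Lib.P037.PB.Cert

namespace Vale.Agent.Lib.P037.PB

open Finset

/-- the rows counted by `E7_card` for a fixed pivot `g` and a fixed column `c` -/
def e7Fib (n t h w1 : ℕ) (st : ℕ → ℕ) (A : ℕ → ℕ → Bool) (Del : Finset ℕ) (g c : ℕ) : Finset ℕ :=
  (range n).filter fun r => st r = g ∧ h ≤ (cl n t st (r / t) g).card ∧
    c ∉ Yc n t h w1 st A Del (r / t) g ∧ A r c = true

theorem e7Fib_card {n t h w1 W M2 d1 : ℕ} {A : ℕ → ℕ → Bool} {st : ℕ → ℕ} {P Del : Finset ℕ}
    (X : Ctx n t h w1 W M2 d1 A st P Del) {g c : ℕ} (hg : g ∈ P) (hcn : c < n) (hgc : g ≤ c)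
    (hcD : c ∉ Del) :
    (w1 + W) * (e7Fib n t h w1 st A Del g c).card ≤ t * (w1 + W) + M2 := by
  classical
  set Q := e7Fib n t h w1 st A Del g c with hQ
  rcases Q.eq_empty_or_nonempty with hemp | hne
  · rw [hemp]; simp
  have hmem : ∀ r ∈ Q, r < n ∧ st r = g ∧ w1 + W ≤ zt n t st A (r / t) g c ∧ A r c = true := by
    intro r hr
    rw [hQ, e7Fib, mem_filter, mem_range] at hr
    obtain ⟨hrn, hst, hheavy, hnot, hA⟩ := hr
    refine ⟨hrn, hst, ?_, hA⟩
    rcases X.hD3 (r / t) g c hg hcn hcD with h1 | h1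
    · exact absurd (mem_Yc.mpr ⟨hheavy, hcn, hgc, hcD, h1⟩) hnot
    · exact h1
  -- the largest strip meeting `Q`
  obtain ⟨r0, hr0, hmax⟩ := exists_max_image Q (fun r => r / t) hne
  set j0 := r0 / t with hj0
  have hz0 : w1 + W ≤ zt n t st A j0 g c := (hmem r0 hr0).2.2.1
  have hone : ∀ x ∈ cl n t st j0 g, A x g = true := X.pivot_one hg
  have hgc' : g < c := by
    rcases Nat.eq_or_lt_of_le hgc with h1 | h1
    · exfalso
      have h0 : zt n t st A j0 g c = 0 := by
        rw [zt, card_eq_zero, filter_eq_empty_iff]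
        intro x hx
        rw [← h1, hone x hx]
        simp
      have := X.hw1
      omega
    · exact h1
  have hlt := X.hD2 g hg c hcn hgc' hcD
  set Q1 := Q.filter fun r => r / t < j0 with hQ1
  set Q2 := Q.filter fun r => ¬ r / t < j0 with hQ2
  have hsplit : Q1.card + Q2.card = Q.card := card_filter_add_card_filter_not _
  have hQ2card : Q2.card ≤ t := by
    have hsub : Q2 ⊆ cl n t st j0 g := by
      intro r hr
      rw [hQ2, mem_filter] at hr
      obtain ⟨hrn, hst, -, -⟩ := hmem r hr.1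
      have h1 := hmax r hr.1
      rw [cl, mem_filter, strip, mem_filter, mem_range]
      exact ⟨⟨hrn, by omega⟩, hst⟩
    exact (card_le_card hsub).trans (cl_card_le n t X.ht st j0 g)
  have hQ1card : Q1.card * (w1 + W) ≤ ncol n A g c := by
    have hsubn : Q1 ⊆ range n := by
      intro r hr
      rw [hQ1, mem_filter] at hr
      exact mem_range.mpr (hmem r hr.1).1
    have hltrows : ∀ x ∈ Q1, ∀ y ∈ cl n t st j0 g, x < y := by
      intro x hx y hy
      rw [hQ1, mem_filter] at hx
      rw [cl, mem_filter, strip, mem_filter] at hy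
      by_contra hcon
      push Not at hcon
      have := Nat.div_le_div_right (c := t) hcon
      omega
    have hge := ncol_ge_of_lt n A Q1 (cl n t st j0 g) hsubn (cl_subset_range n t st j0 g)
      hltrows g c
    have hA : Q1.card ≤ (Q1.filter fun x => A x g = true ∧ A x c = true).card := by
      refine card_le_card ?_
      intro x hx
      rw [mem_filter]
      have hx' := hx
      rw [hQ1, mem_filter] at hx'
      obtain ⟨hxn, hst, -, hAx⟩ := hmem x hx'.1
      refine ⟨hx, ?_, hAx⟩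
      have := X.hst2 x hxn (by rw [hst]; exact hg)
      rwa [hst] at this
    have hB : w1 + W ≤
        ((cl n t st j0 g).filter fun y => A y g = true ∧ A y c = false).card := by
      have hsub : ((cl n t st j0 g).filter fun y => A y c = false) ⊆
          ((cl n t st j0 g).filter fun y => A y g = true ∧ A y c = false) := by
        intro x hx
        rw [mem_filter] at hx ⊢
        exact ⟨hx.1, hone x hx.1, hx.2⟩
      exact le_trans hz0 (card_le_card hsub)
    exact (Nat.mul_le_mul hA hB).trans hge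
  calc (w1 + W) * Q.card = Q2.card * (w1 + W) + Q1.card * (w1 + W) := by
        rw [← hsplit]; ring
    _ ≤ t * (w1 + W) + M2 := by
        have := Nat.mul_le_mul_right (w1 + W) hQ2card
        omega

/-- ones of `A` outside the class rows (heavy classes, surviving columns `≥` start). -/
theorem E7_card {n t h w1 W M2 d1 : ℕ} {A : ℕ → ℕ → Bool} {st : ℕ → ℕ} {P Del : Finset ℕ}
    (X : Ctx n t h w1 W M2 d1 A st P Del) :
    (w1 + W) * ((range n ×ˢ range n).filter fun x =>
      st x.1 ∈ P ∧ h ≤ (cl n t st (x.1 / t) (st x.1)).card ∧ st x.1 ≤ x.2 ∧ x.2 ∉ Del ∧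
        x.2 ∉ Yc n t h w1 st A Del (x.1 / t) (st x.1) ∧ A x.1 x.2 = true).card
      ≤ P.card * n * (t * (w1 + W) + M2) := by
  classical
  set S := (range n ×ˢ range n).filter fun x =>
      st x.1 ∈ P ∧ h ≤ (cl n t st (x.1 / t) (st x.1)).card ∧ st x.1 ≤ x.2 ∧ x.2 ∉ Del ∧
        x.2 ∉ Yc n t h w1 st A Del (x.1 / t) (st x.1) ∧ A x.1 x.2 = true with hS
  have hmaps : Set.MapsTo (fun x : ℕ × ℕ => (st x.1, x.2)) (S : Set (ℕ × ℕ))
      ((P ×ˢ range n : Finset (ℕ × ℕ)) : Set (ℕ × ℕ)) := by
    intro x hx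
    have hx' : x ∈ S := hx
    rw [hS, mem_filter, mem_product] at hx'
    exact mem_coe.mpr (mem_product.mpr ⟨hx'.2.1, hx'.1.2⟩)
  rw [card_eq_sum_card_fiberwise hmaps, mul_sum]
  have hbound : ∀ b ∈ P ×ˢ range n,
      (w1 + W) * (S.filter fun x => (st x.1, x.2) = b).card ≤ t * (w1 + W) + M2 := by
    rintro ⟨g, c⟩ hb
    obtain ⟨hg, hc⟩ := mem_product.mp hb
    have hcn : c < n := mem_range.mp hc
    rcases (S.filter fun x => (st x.1, x.2) = (g, c)).eq_empty_or_nonempty with hemp | hne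
    · rw [hemp]; simp
    obtain ⟨x0, hx0⟩ := hne
    rw [mem_filter, hS, mem_filter] at hx0
    obtain ⟨⟨-, -, -, h3, h4, -, -⟩, heq⟩ := hx0
    have e1 : st x0.1 = g := congrArg Prod.fst heq
    have e2 : x0.2 = c := congrArg Prod.snd heq
    rw [e1, e2] at h3
    rw [e2] at h4
    refine le_trans (Nat.mul_le_mul_left _ ?_) (e7Fib_card X hg hcn h3 h4)
    refine card_le_card_of_injOn (fun x => x.1) ?_ ?_
    · intro x hx
      have hx' : x ∈ S.filter fun x => (st x.1, x.2) = (g, c) := hx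
      rw [mem_filter, hS, mem_filter, mem_product] at hx'
      obtain ⟨⟨⟨hx1, -⟩, -, k2, -, -, k5, k6⟩, hxeq⟩ := hx'
      have f1 : st x.1 = g := congrArg Prod.fst hxeq
      have f2 : x.2 = c := congrArg Prod.snd hxeq
      rw [f1] at k2 k5
      rw [f2] at k5 k6
      exact mem_coe.mpr (by
        rw [e7Fib, mem_filter]
        exact ⟨hx1, f1, k2, k5, k6⟩)
    · intro x hx y hy hxy
      have hx' : x ∈ S.filter fun x => (st x.1, x.2) = (g, c) := hx
      have hy' : y ∈ S.filter fun x => (st x.1, x.2) = (g, c) := hy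
      rw [mem_filter] at hx' hy'
      have f2 : x.2 = c := congrArg Prod.snd hx'.2
      have f3 : y.2 = c := congrArg Prod.snd hy'.2
      exact Prod.ext hxy (f2.trans f3.symm)
  calc ∑ b ∈ P ×ˢ range n, (w1 + W) * (S.filter fun x => (st x.1, x.2) = b).card
      ≤ ∑ _b ∈ P ×ˢ range n, (t * (w1 + W) + M2) := sum_le_sum hbound
    _ = P.card * n * (t * (w1 + W) + M2) := by
        rw [sum_const, card_product, card_range, smul_eq_mul]

end Vale.Agent.Lib.P037.PB
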