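import Vale.Agent.Lib.P037.PB.Account1
import Vale.Agent.Lib.P037.PB.Account2
import Vale.Agent.Lib.P037.PB.Account3

namespace Vale.Agent.Lib.P037.PB

open Finset

theorem card_union7_le {α : Type*} [DecidableEq α] (D e1 e2 e3 e4 e5 e6 e7 : Finset α)
    (h : D ⊆ e1 ∪ e2 ∪ e3 ∪ e4 ∪ e5 ∪ e6 ∪ e7) :
    D.card ≤ (e1.card + e2.card + e3.card + e4.card + e5.card + e6.card) + e7.card := by
  refine (card_le_card h).trans ?_
  refine (card_union_le _ _).trans (Nat.add_le_add_right ?_ _)
  refine (card_union_le _ _).trans (Nat.add_le_add_right ?_ _)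
  refine (card_union_le _ _).trans (Nat.add_le_add_right ?_ _)
  refine (card_union_le _ _).trans (Nat.add_le_add_right ?_ _)
  refine (card_union_le _ _).trans (Nat.add_le_add_right ?_ _)
  exact card_union_le _ _

/-- Blueprint (b), Step I: the distance accounting. -/
theorem ham_Bm_le {n t h w1 W M2 d1 : ℕ} {A : ℕ → ℕ → Bool} {st : ℕ → ℕ} {P Del : Finset ℕ}
    (X : Ctx n t h w1 W M2 d1 A st P Del) (hM2 : M2 ≤ (h - w1) * (w1 + W))
    (hc : PCross (Yc n t h w1 st A Del)) (m' : ℕ)
    (hpre : ∀ r, r < n → st r ∈ P → ((range (st r)).filter fun c => A r c = true).card ≤ m') :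
    (w1 + W) * hamN n A (Bm t st (Yc n t h w1 st A Del)) ≤
      (w1 + W) * (((range n ×ˢ range n).filter fun x => st x.1 = n ∧ A x.1 x.2 = true).card
        + (n / t + 1) * P.card * h * n + n * m' + n * Del.card
        + (n / t + 1) * P.card * n * w1 + P.card * n * t)
      + P.card * n * (t * (w1 + W) + M2) := by
  set Y := Yc n t h w1 st A Del with hY
  set e1 := (range n ×ˢ range n).filter fun x => st x.1 = n ∧ A x.1 x.2 = true with he1
  set e2 := (range n ×ˢ range n).filter fun x =>
      st x.1 ∈ P ∧ (cl n t st (x.1 / t) (st x.1)).card < h with he2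
  set e3 := (range n ×ˢ range n).filter fun x =>
      st x.1 ∈ P ∧ x.2 < st x.1 ∧ A x.1 x.2 = true with he3
  set e4 := (range n ×ˢ range n).filter fun x => x.2 ∈ Del with he4
  set e5 := (range n ×ˢ range n).filter fun x =>
      x.2 ∈ Y (x.1 / t) (st x.1) ∧ A x.1 x.2 = false with he5
  set e6 := (range n ×ˢ range n).filter fun x =>
      Bm t st Y x.1 x.2 = true ∧ x.2 ∉ Y (x.1 / t) (st x.1) with he6
  set e7 := (range n ×ˢ range n).filter fun x =>
      st x.1 ∈ P ∧ h ≤ (cl n t st (x.1 / t) (st x.1)).card ∧ st x.1 ≤ x.2 ∧ x.2 ∉ Del ∧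
        x.2 ∉ Y (x.1 / t) (st x.1) ∧ A x.1 x.2 = true with he7
  have b2 : e2.card ≤ (n / t + 1) * P.card * h * n := E2_card X
  have b3 : e3.card ≤ n * m' := E3_card n m' A st P hpre
  have b4 : e4.card ≤ n * Del.card := E4_card n Del
  have b5 : e5.card ≤ (n / t + 1) * P.card * n * w1 := E5_card X
  have b6 : e6.card ≤ P.card * n * t := E6_card X hM2 hc
  have b7 : (w1 + W) * e7.card ≤ P.card * n * (t * (w1 + W) + M2) := E7_card X
  have hsub : ((range n ×ˢ range n).filter fun p => A p.1 p.2 ≠ Bm t st Y p.1 p.2) ⊆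
      e1 ∪ e2 ∪ e3 ∪ e4 ∪ e5 ∪ e6 ∪ e7 := by
    intro x hx
    rw [mem_filter] at hx
    obtain ⟨hxS, hne⟩ := hx
    have hr : x.1 < n := mem_range.1 (mem_product.1 hxS).1
    simp only [mem_union]
    rcases X.hst1 x.1 hr with hP | hn
    · by_cases hl : (cl n t st (x.1 / t) (st x.1)).card < h
      · exact Or.inl (Or.inl (Or.inl (Or.inl (Or.inl (Or.inr (mem_filter.2 ⟨hxS, hP, hl⟩))))))
      · have hheavy : h ≤ (cl n t st (x.1 / t) (st x.1)).card := not_lt.1 hl
        by_cases hB : Bm t st Y x.1 x.2 = true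
        · by_cases hy : x.2 ∈ Y (x.1 / t) (st x.1)
          · have hA : A x.1 x.2 = false := by
              rw [hB] at hne
              simpa using hne
            exact Or.inl (Or.inl (Or.inr (mem_filter.2 ⟨hxS, hy, hA⟩)))
          · exact Or.inl (Or.inr (mem_filter.2 ⟨hxS, hB, hy⟩))
        · have hB' : Bm t st Y x.1 x.2 = false := by simpa using hB
          have hA : A x.1 x.2 = true := by
            rw [hB'] at hne
            simpa using hne
          have hy : x.2 ∉ Y (x.1 / t) (st x.1) := fun hy =>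
            hB (Bm_eq_true_iff.2 (subset_InCl Y hy))
          by_cases h3 : x.2 < st x.1
          · exact Or.inl (Or.inl (Or.inl (Or.inl (Or.inr (mem_filter.2 ⟨hxS, hP, h3, hA⟩)))))
          · by_cases h4 : x.2 ∈ Del
            · exact Or.inl (Or.inl (Or.inl (Or.inr (mem_filter.2 ⟨hxS, h4⟩))))
            · exact Or.inr (mem_filter.2 ⟨hxS, hP, hheavy, not_lt.1 h3, h4, hy, hA⟩)
    · have hB : ¬ Bm t st Y x.1 x.2 = true := by
        intro hB
        obtain ⟨c0, hc0, -⟩ := Bm_eq_true_iff.1 hB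
        have := X.hP (X.pivot_of_mem hc0).1
        rw [hn, mem_range] at this
        exact lt_irrefl _ this
      have hB' : Bm t st Y x.1 x.2 = false := by simpa using hB
      have hA : A x.1 x.2 = true := by
        rw [hB'] at hne
        simpa using hne
      exact Or.inl (Or.inl (Or.inl (Or.inl (Or.inl (Or.inl (mem_filter.2 ⟨hxS, hn, hA⟩))))))
  have hcard := card_union7_le _ e1 e2 e3 e4 e5 e6 e7 hsub
  unfold hamN
  calc (w1 + W) * ((range n ×ˢ range n).filter fun p => A p.1 p.2 ≠ Bm t st Y p.1 p.2).card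
      ≤ (w1 + W) * ((e1.card + e2.card + e3.card + e4.card + e5.card + e6.card) + e7.card) :=
        Nat.mul_le_mul_left _ hcard
    _ = (w1 + W) * (e1.card + e2.card + e3.card + e4.card + e5.card + e6.card) +
        (w1 + W) * e7.card := by rw [Nat.mul_add]
    _ ≤ (w1 + W) * (e1.card + (n / t + 1) * P.card * h * n + n * m' + n * Del.card
        + (n / t + 1) * P.card * n * w1 + P.card * n * t)
      + P.card * n * (t * (w1 + W) + M2) := by
        apply Nat.add_le_add _ b7
        apply Nat.mul_le_mul_left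
        omega

end Vale.Agent.Lib.P037.PB
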