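import Vale.Agent.Lib.P037.PB.Defs

namespace Vale.Agent.Lib.P037.PB

open Finset

theorem cert_sum4_reorder (s : Finset ℕ) (f : ℕ → ℕ → ℕ → ℕ → ℕ) :
    ∑ a ∈ s, ∑ b ∈ s, ∑ c ∈ s, ∑ d ∈ s, f a b c d =
      ∑ c ∈ s, ∑ d ∈ s, ∑ a ∈ s, ∑ b ∈ s, f a b c d := by
  calc ∑ a ∈ s, ∑ b ∈ s, ∑ c ∈ s, ∑ d ∈ s, f a b c d
      = ∑ a ∈ s, ∑ c ∈ s, ∑ b ∈ s, ∑ d ∈ s, f a b c d := by
        refine sum_congr rfl fun a _ => sum_comm
    _ = ∑ c ∈ s, ∑ a ∈ s, ∑ b ∈ s, ∑ d ∈ s, f a b c d := sum_comm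
    _ = ∑ c ∈ s, ∑ a ∈ s, ∑ d ∈ s, ∑ b ∈ s, f a b c d := by
        refine sum_congr rfl fun c _ => sum_congr rfl fun a _ => sum_comm
    _ = ∑ c ∈ s, ∑ d ∈ s, ∑ a ∈ s, ∑ b ∈ s, f a b c d := by
        refine sum_congr rfl fun c _ => sum_comm

theorem sum_n1 (n : ℕ) (A : ℕ → ℕ → Bool) : ∑ c ∈ range n, n1 n A c = NB n A := by
  unfold n1 NB ncol copies2
  simp only [Finset.card_filter, Finset.sum_filter, Finset.sum_product]
  rw [cert_sum4_reorder]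
  refine sum_congr rfl fun c _ => sum_congr rfl fun c' _ => ?_
  by_cases h : c < c'
  · simp only [h, if_true, true_and]
  · simp only [h, if_false, false_and, and_false, sum_const_zero]

/-- partial sums of `ncol c0 ·` are at most `n1 c0`. -/
theorem sum_ncol_le_n1 (n : ℕ) (A : ℕ → ℕ → Bool) (c0 : ℕ) (S : Finset ℕ)
    (hS : ∀ c ∈ S, c0 < c ∧ c < n) : ∑ c ∈ S, ncol n A c0 c ≤ n1 n A c0 := by
  unfold n1
  apply sum_le_sum_of_subset
  intro c hc
  rw [mem_filter, mem_range]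
  exact ⟨(hS c hc).2, (hS c hc).1⟩

theorem ncol_ge_of_lt (n : ℕ) (A : ℕ → ℕ → Bool) (R1 R2 : Finset ℕ) (h1 : R1 ⊆ range n)
    (h2 : R2 ⊆ range n) (hlt : ∀ x ∈ R1, ∀ y ∈ R2, x < y) (c1 c2 : ℕ) :
    (R1.filter fun x => A x c1 = true ∧ A x c2 = true).card *
      (R2.filter fun y => A y c1 = true ∧ A y c2 = false).card ≤ ncol n A c1 c2 := by
  rw [← card_product]
  unfold ncol
  apply card_le_card
  intro p hp
  rw [mem_product, mem_filter, mem_filter] at hp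
  rw [mem_filter, mem_product]
  exact ⟨⟨h1 hp.1.1, h2 hp.2.1⟩, hlt _ hp.1.1 _ hp.2.1, hp.1.2.1, hp.1.2.2, hp.2.2.1, hp.2.2.2⟩

/-- the general two-sided counting certificate. -/
theorem cert_two_sided (n : ℕ) (A : ℕ → ℕ → Bool) (X Y : Finset ℕ) (h1 : X ⊆ range n)
    (h2 : Y ⊆ range n) (hne : ∀ x ∈ X, ∀ y ∈ Y, x ≠ y) (a1 b1 a2 b2 : ℕ)
    (hA : ∀ x ∈ X, ∀ y ∈ Y, A x a1 = true ∧ A x b1 = true ∧ A y a1 = true ∧ A y b1 = false)
    (hB : ∀ x ∈ X, ∀ y ∈ Y, A y a2 = true ∧ A y b2 = true ∧ A x a2 = true ∧ A x b2 = false) :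
    X.card * Y.card ≤ ncol n A a1 b1 + ncol n A a2 b2 := by
  rw [← card_product, ← card_filter_add_card_filter_not (s := X ×ˢ Y) (fun p => p.1 < p.2)]
  apply Nat.add_le_add
  · unfold ncol
    apply card_le_card
    intro p hp
    rw [mem_filter, mem_product] at hp
    rw [mem_filter, mem_product]
    exact ⟨⟨h1 hp.1.1, h2 hp.1.2⟩, hp.2, hA _ hp.1.1 _ hp.1.2⟩
  · unfold ncol
    apply card_le_card_of_injOn Prod.swap
    · intro p hp
      rw [mem_coe, mem_filter, mem_product] at hp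
      rw [mem_coe, mem_filter, mem_product]
      have hlt : p.2 < p.1 :=
        lt_of_le_of_ne (not_lt.1 hp.2) (fun e => hne _ hp.1.1 _ hp.1.2 e.symm)
      exact ⟨⟨h2 hp.1.2, h1 hp.1.1⟩, hlt, hB _ hp.1.1 _ hp.1.2⟩
    · exact Prod.swap_injective.injOn

theorem ncol_add_ge (n : ℕ) (A : ℕ → ℕ → Bool) (R1 R2 : Finset ℕ) (h1 : R1 ⊆ range n)
    (h2 : R2 ⊆ range n) (hd : Disjoint R1 R2) (c0 c c' : ℕ) :
    (R1.filter fun x => A x c0 = true ∧ A x c = true ∧ A x c' = false).card *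
      (R2.filter fun y => A y c0 = true ∧ A y c = false ∧ A y c' = true).card
      ≤ ncol n A c0 c + ncol n A c0 c' := by
  apply cert_two_sided n A _ _ ((filter_subset _ _).trans h1) ((filter_subset _ _).trans h2)
  · intro x hx y hy e
    rw [mem_filter] at hx hy
    exact disjoint_left.1 hd hx.1 (e ▸ hy.1)
  · intro x hx y hy
    rw [mem_filter] at hx hy
    exact ⟨hx.2.1, hx.2.2.1, hy.2.1, hy.2.2.1⟩
  · intro x hx y hy
    rw [mem_filter] at hx hy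
    exact ⟨hy.2.1, hy.2.2.2, hx.2.1, hx.2.2.2⟩

theorem zeros_nested (n : ℕ) (A : ℕ → ℕ → Bool) (R : Finset ℕ) (hR : R ⊆ range n) (g c c' : ℕ)
    (hg : ∀ x ∈ R, A x g = true) :
    (R.filter fun x => A x c = false ∧ A x c' = true).card *
      (R.filter fun x => A x c = true ∧ A x c' = false).card
      ≤ ncol n A g c + ncol n A g c' := by
  rw [add_comm]
  apply cert_two_sided n A _ _ ((filter_subset _ _).trans hR) ((filter_subset _ _).trans hR)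
  · intro x hx y hy e
    rw [mem_filter] at hx hy
    rw [e, hy.2.1] at hx
    exact Bool.noConfusion hx.2.1
  · intro x hx y hy
    rw [mem_filter] at hx hy
    exact ⟨hg _ hx.1, hx.2.2, hg _ hy.1, hy.2.2⟩
  · intro x hx y hy
    rw [mem_filter] at hx hy
    exact ⟨hg _ hy.1, hy.2.1, hg _ hx.1, hx.2.1⟩

theorem cert_mem_cl {n t : ℕ} {st : ℕ → ℕ} {j g x : ℕ} :
    x ∈ cl n t st j g ↔ x < n ∧ x / t = j ∧ st x = g := by
  unfold cl strip
  rw [mem_filter, mem_filter, mem_range, and_assoc]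

/-- rows of an earlier strip are above rows of a later strip. -/
theorem cl_lt_cl (n t : ℕ) (ht : 1 ≤ t) (st : ℕ → ℕ) {i j g1 g2 : ℕ} (hij : i < j) :
    ∀ x ∈ cl n t st i g1, ∀ y ∈ cl n t st j g2, x < y := by
  intro x hx y hy
  rw [cert_mem_cl] at hx hy
  by_contra hcon
  have h1 : y / t ≤ x / t := Nat.div_le_div_right (not_lt.1 hcon)
  omega

theorem cl_subset_range (n t : ℕ) (st : ℕ → ℕ) (j g : ℕ) : cl n t st j g ⊆ range n := by
  intro x hx
  rw [cert_mem_cl] at hx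
  exact mem_range.2 hx.1

theorem cl_card_le (n t : ℕ) (ht : 1 ≤ t) (st : ℕ → ℕ) (j g : ℕ) : (cl n t st j g).card ≤ t :=
  (card_le_card (filter_subset _ _)).trans (card_strip_le n t j ht)

theorem cl_disjoint (n t : ℕ) (st : ℕ → ℕ) (j : ℕ) {g1 g2 : ℕ} (h : g1 ≠ g2) :
    Disjoint (cl n t st j g1) (cl n t st j g2) := by
  rw [disjoint_left]
  intro x hx hy
  rw [cert_mem_cl] at hx hy
  exact h (hx.2.2.symm.trans hy.2.2)

/-- membership in `Yc`, unfolded. -/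
theorem mem_Yc {n t h w1 : ℕ} {st : ℕ → ℕ} {A : ℕ → ℕ → Bool} {Del : Finset ℕ} {j g c : ℕ} :
    c ∈ Yc n t h w1 st A Del j g ↔
      h ≤ (cl n t st j g).card ∧ c < n ∧ g ≤ c ∧ c ∉ Del ∧ zt n t st A j g c < w1 := by
  unfold Yc
  by_cases hh : h ≤ (cl n t st j g).card
  · rw [if_pos hh, mem_filter, mem_range]
    exact ⟨fun H => ⟨hh, H⟩, fun H => H.2⟩
  · rw [if_neg hh]
    exact ⟨fun H => absurd H (notMem_empty _), fun H => absurd H.1 hh⟩

/-- a nonempty class row belongs to a pivot and to a strip `< n / t + 1`. -/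
theorem Ctx.pivot_of_mem {n t h w1 W M2 d1 : ℕ} {A : ℕ → ℕ → Bool} {st : ℕ → ℕ}
    {P Del : Finset ℕ} (X : Ctx n t h w1 W M2 d1 A st P Del) {j g c : ℕ}
    (hc : c ∈ Yc n t h w1 st A Del j g) : g ∈ P ∧ j < n / t + 1 := by
  rw [mem_Yc] at hc
  have hpos : 0 < (cl n t st j g).card := lt_of_lt_of_le X.hh hc.1
  obtain ⟨r, hr⟩ := card_pos.1 hpos
  rw [cert_mem_cl] at hr
  constructor
  · rcases X.hst1 r hr.1 with h1 | h1
    · rw [hr.2.2] at h1
      exact h1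
    · rw [hr.2.2] at h1
      omega
  · have : r / t ≤ n / t := Nat.div_le_div_right hr.1.le
    omega

/-- all rows of a pivot class have a one in the pivot column. -/
theorem Ctx.pivot_one {n t h w1 W M2 d1 : ℕ} {A : ℕ → ℕ → Bool} {st : ℕ → ℕ}
    {P Del : Finset ℕ} (X : Ctx n t h w1 W M2 d1 A st P Del) {j g : ℕ} (hg : g ∈ P) :
    ∀ x ∈ cl n t st j g, A x g = true := by
  intro x hx
  rw [cert_mem_cl] at hx
  have := X.hst2 x hx.1 (by rw [hx.2.2]; exact hg)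
  rw [hx.2.2] at this
  exact this

theorem Ctx.mono {n t h w1 W M2 d1 : ℕ} {A : ℕ → ℕ → Bool} {st : ℕ → ℕ}
    {P Del Del' : Finset ℕ} (X : Ctx n t h w1 W M2 d1 A st P Del) (hsub : Del ⊆ Del') :
    Ctx n t h w1 W M2 d1 A st P Del' where
  ht := X.ht
  hh := X.hh
  hw1 := X.hw1
  hP := X.hP
  hst1 := X.hst1
  hst2 := X.hst2
  hHv := fun c hc hd => X.hHv c hc (fun h => hd (hsub h))
  hD2 := fun g hg c hc hgc hd => X.hD2 g hg c hc hgc (fun h => hd (hsub h))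
  hD3 := fun j g c hg hc hd => X.hD3 j g c hg hc (fun h => hd (hsub h))

end Vale.Agent.Lib.P037.PB
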