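import Vale.Agent.Lib.P037.PB.Defs

namespace Vale.Agent.Lib.P037.PB

open Finset

/-- cross-strip suffix property. -/
def PCross (Y : ℕ → ℕ → Finset ℕ) : Prop :=
  ∀ i j g1 g2 c1 c2, i < j → c1 < c2 → c1 ∈ Y i g1 → c2 ∈ Y i g1 → c1 ∈ Y j g2 → c2 ∈ Y j g2

/-- same-strip: at least one of the two directions has the suffix property. -/
def PSame (Y : ℕ → ℕ → Finset ℕ) : Prop :=
  ∀ j g1 g2,
    (∀ c1 c2, c1 < c2 → c1 ∈ Y j g1 → c2 ∈ Y j g1 → c1 ∈ Y j g2 → c2 ∈ Y j g2) ∨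
    (∀ c1 c2, c1 < c2 → c1 ∈ Y j g2 → c2 ∈ Y j g2 → c1 ∈ Y j g1 → c2 ∈ Y j g1)

theorem subset_InCl (Y : ℕ → ℕ → Finset ℕ) {j g c : ℕ} (h : c ∈ Y j g) : InCl Y j g c :=
  ⟨c, h, Relation.ReflTransGen.refl⟩

/-- links increase -/
theorem reach_le_cl (Y : ℕ → ℕ → Finset ℕ) {j a b : ℕ}
    (h : Relation.ReflTransGen (link Y j) a b) : a ≤ b := by
  induction h with
  | refl => exact le_rfl
  | tail _ h2 ih => exact ih.trans h2.1.le

/-- every element of the closure is `≥` some element of the class row. -/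
theorem InCl_ge (Y : ℕ → ℕ → Finset ℕ) {j g c : ℕ} (h : InCl Y j g c) :
    ∃ c0 ∈ Y j g, c0 ≤ c := by
  obtain ⟨c0, h0, h1⟩ := h
  exact ⟨c0, h0, reach_le_cl Y h1⟩

/-- two links out of the same column are linked -/
theorem link_base_cl (Y : ℕ → ℕ → Finset ℕ) (hc : PCross Y) (hs : PSame Y) {j y e1 e2 : ℕ}
    (h1 : link Y j y e1) (h2 : link Y j y e2) (h12 : e1 < e2) : link Y j e1 e2 := by
  obtain ⟨hy1, i1, hi1, g1, a1, b1⟩ := h1
  obtain ⟨hy2, i2, hi2, g2, a2, b2⟩ := h2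
  refine ⟨h12, ?_⟩
  rcases lt_trichotomy i1 i2 with h | h | h
  · exact ⟨i2, hi2, g2, hc i1 i2 g1 g2 y e1 h hy1 a1 b1 a2, b2⟩
  · subst h
    rcases hs i1 g1 g2 with h' | h'
    · exact ⟨i1, hi1, g2, h' y e1 hy1 a1 b1 a2, b2⟩
    · exact ⟨i1, hi1, g1, b1, h' y e2 hy2 a2 b2 a1⟩
  · exact ⟨i1, hi1, g1, b1, hc i2 i1 g2 g1 y e2 h hy2 a2 b2 a1⟩

/-- Blueprint (b), Lemma G. -/
theorem reach_of_link_cl (Y : ℕ → ℕ → Finset ℕ) (hc : PCross Y) (hs : PSame Y) (j : ℕ)
    {y c2 : ℕ} (h2 : Relation.ReflTransGen (link Y j) y c2) :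
    ∀ e1, link Y j y e1 → e1 < c2 → Relation.ReflTransGen (link Y j) e1 c2 := by
  induction h2 using Relation.ReflTransGen.head_induction_on with
  | refl =>
    intro e1 h1 h12
    exact absurd h1.1 (not_lt.2 h12.le)
  | head h' h ih =>
    rename_i a e2
    intro e1 h1 h12
    rcases lt_trichotomy e1 e2 with hlt | heq | hgt
    · exact Relation.ReflTransGen.head (link_base_cl Y hc hs h1 h' hlt) h
    · rw [heq]
      exact h
    · exact ih e1 (link_base_cl Y hc hs h' h1 hgt) h12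

/-- Blueprint (b), Lemma F. -/
theorem reach_linear (Y : ℕ → ℕ → Finset ℕ) (hc : PCross Y) (hs : PSame Y) (j : ℕ)
    {y c1 c2 : ℕ} (h1 : Relation.ReflTransGen (link Y j) y c1)
    (h2 : Relation.ReflTransGen (link Y j) y c2) (h12 : c1 < c2) :
    Relation.ReflTransGen (link Y j) c1 c2 := by
  induction h1 using Relation.ReflTransGen.head_induction_on with
  | refl => exact h2
  | head h' h ih =>
    exact ih (reach_of_link_cl Y hc hs j h2 _ h' (lt_of_le_of_lt (reach_le_cl Y h) h12))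

/-- links are monotone in the time index -/
theorem reach_mono_cl (Y : ℕ → ℕ → Finset ℕ) {i j a b : ℕ} (hij : i ≤ j)
    (h : Relation.ReflTransGen (link Y i) a b) : Relation.ReflTransGen (link Y j) a b := by
  induction h with
  | refl => exact Relation.ReflTransGen.refl
  | tail _ h2 ih =>
    obtain ⟨hxy, i', hi', g, h1, h2⟩ := h2
    exact ih.tail ⟨hxy, i', hi'.trans hij, g, h1, h2⟩

/-- Blueprint (b), closure is free. -/
theorem closure_free (Y : ℕ → ℕ → Finset ℕ) (hc : PCross Y) (hs : PSame Y)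
    {i j g1 g2 c1 c2 : ℕ} (hij : i ≤ j) (h12 : c1 < c2)
    (h1 : InCl Y i g1 c1) (h2 : InCl Y i g1 c2) (h3 : InCl Y j g2 c1) : InCl Y j g2 c2 := by
  obtain ⟨y1, m1, r1⟩ := h1
  obtain ⟨y2, m2, r2⟩ := h2
  obtain ⟨y3, m3, r3⟩ := h3
  have key : Relation.ReflTransGen (link Y i) c1 c2 := by
    rcases lt_trichotomy y1 y2 with h | h | h
    · have hl : link Y i y1 y2 := ⟨h, i, le_rfl, g1, m1, m2⟩
      exact reach_linear Y hc hs i r1 (Relation.ReflTransGen.head hl r2) h12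
    · subst h
      exact reach_linear Y hc hs i r1 r2 h12
    · have hl : link Y i y2 y1 := ⟨h, i, le_rfl, g1, m2, m1⟩
      exact reach_linear Y hc hs i (Relation.ReflTransGen.head hl r1) r2 h12
  exact ⟨y3, m3, r3.trans (reach_mono_cl Y hij key)⟩

/-- Blueprint (b), closure stays inside every later class row containing the class row. -/
theorem closure_sub (Y : ℕ → ℕ → Finset ℕ) (hc : PCross Y) {j j' g g' c : ℕ} (hj : j < j')
    (hsub : Y j g ⊆ Y j' g') (h : InCl Y j g c) : c ∈ Y j' g' := by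
  obtain ⟨c0, h0, hr⟩ := h
  induction hr with
  | refl => exact hsub h0
  | tail _ h2 ih =>
    obtain ⟨hlt, i, hi, g0, a1, a2⟩ := h2
    exact hc i j' g0 g' _ _ (lt_of_le_of_lt hi hj) hlt a1 a2 ih

/-- the final matrix is free. -/
theorem Bm_free (n t : ℕ) (st : ℕ → ℕ) (Y : ℕ → ℕ → Finset ℕ) (hc : PCross Y) (hs : PSame Y) :
    free2 n true true true false (Bm t st Y) := by
  classical
  intro r1 r2 c1 c2 hr _ hcc _ h
  obtain ⟨h1, h2, h3, h4⟩ := h
  unfold Bm at h1 h2 h3 h4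
  have k1 := of_decide_eq_true h1
  have k2 := of_decide_eq_true h2
  have k3 := of_decide_eq_true h3
  have k4 := of_decide_eq_false h4
  exact k4 (closure_free Y hc hs (Nat.div_le_div_right hr.le) hcc k1 k2 k3)

end Vale.Agent.Lib.P037.PB
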