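import Vale.Agent.Lib.P037.PB.Cert

namespace Vale.Agent.Lib.P037.PB

open Finset

/-- a column that is not in the class row although it could be has many zeros -/
theorem cross_many_zeros {n t h w1 W M2 d1 : ℕ} {A : ℕ → ℕ → Bool} {st : ℕ → ℕ}
    {P Del : Finset ℕ} (X : Ctx n t h w1 W M2 d1 A st P Del) {j g c0 c : ℕ}
    (h0 : c0 ∈ Yc n t h w1 st A Del j g) (h0c : c0 < c) (hcn : c < n) (hcD : c ∉ Del)
    (hc : c ∉ Yc n t h w1 st A Del j g) : w1 + W ≤ zt n t st A j g c := by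
  have hg := (X.pivot_of_mem h0).1
  obtain ⟨hh, -, hg0, -, -⟩ := mem_Yc.mp h0
  rcases X.hD3 j g c hg hcn hcD with h1 | h1
  · exact absurd (mem_Yc.mpr ⟨hh, hcn, hg0.trans h0c.le, hcD, h1⟩) hc
  · exact h1

/-- pointwise form of F1 -/
theorem cross_pointwise {n t h w1 W M2 d1 : ℕ} {A : ℕ → ℕ → Bool} {st : ℕ → ℕ}
    {P Del : Finset ℕ} (X : Ctx n t h w1 W M2 d1 A st P Del) {i j g1 g2 c0 c : ℕ} (hij : i < j)
    (h01 : c0 ∈ Yc n t h w1 st A Del i g1) (h02 : c0 ∈ Yc n t h w1 st A Del j g2)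
    (hc1 : c ∈ Yc n t h w1 st A Del i g1) (hc2 : c ∉ Yc n t h w1 st A Del j g2) (h0c : c0 < c) :
    (h - 2 * w1) * W ≤ ncol n A c0 c := by
  classical
  obtain ⟨hh1, -, -, -, hz10⟩ := mem_Yc.mp h01
  obtain ⟨-, -, -, -, hz20⟩ := mem_Yc.mp h02
  obtain ⟨-, hcn, -, hcD, hz1c⟩ := mem_Yc.mp hc1
  have hz2c := cross_many_zeros X h02 h0c hcn hcD hc2
  set C1 := cl n t st i g1 with hC1
  set C2 := cl n t st j g2 with hC2
  have hA : h - 2 * w1 ≤ (C1.filter fun x => A x c0 = true ∧ A x c = true).card := by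
    have hsub : C1 ⊆ (C1.filter fun x => A x c0 = true ∧ A x c = true) ∪
        ((C1.filter fun x => A x c0 = false) ∪ (C1.filter fun x => A x c = false)) := by
      intro x hx
      rw [mem_union, mem_union, mem_filter, mem_filter, mem_filter]
      cases hx0 : A x c0 with
      | false => exact Or.inr (Or.inl ⟨hx, rfl⟩)
      | true =>
        cases hxc : A x c with
        | false => exact Or.inr (Or.inr ⟨hx, rfl⟩)
        | true => exact Or.inl ⟨hx, rfl, rfl⟩
    have h1 := (card_le_card hsub).trans (card_union_le _ _)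
    have h2 := card_union_le (C1.filter fun x => A x c0 = false) (C1.filter fun x => A x c = false)
    have h3 : (C1.filter fun x => A x c0 = false).card < w1 := hz10
    have h4 : (C1.filter fun x => A x c = false).card < w1 := hz1c
    omega
  have hB : W ≤ (C2.filter fun y => A y c0 = true ∧ A y c = false).card := by
    have hsub : (C2.filter fun y => A y c = false) ⊆
        (C2.filter fun y => A y c0 = true ∧ A y c = false) ∪
          (C2.filter fun y => A y c0 = false) := by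
      intro x hx
      rw [mem_filter] at hx
      rw [mem_union, mem_filter, mem_filter]
      cases hx0 : A x c0 with
      | false => exact Or.inr ⟨hx.1, rfl⟩
      | true => exact Or.inl ⟨hx.1, rfl, hx.2⟩
    have h1 := (card_le_card hsub).trans (card_union_le _ _)
    have h3 : (C2.filter fun x => A x c0 = false).card < w1 := hz20
    have h4 : w1 + W ≤ (C2.filter fun x => A x c = false).card := hz2c
    omega
  have hge := ncol_ge_of_lt n A C1 C2 (cl_subset_range n t st i g1) (cl_subset_range n t st j g2)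
    (cl_lt_cl n t X.ht st hij) c0 c
  exact (Nat.mul_le_mul hA hB).trans hge

/-- Blueprint (b), F1: cross-strip conflict sets are small. -/
theorem YY_cross {n t h w1 W M2 d1 : ℕ} {A : ℕ → ℕ → Bool} {st : ℕ → ℕ} {P Del : Finset ℕ}
    (X : Ctx n t h w1 W M2 d1 A st P Del) {i j : ℕ} (g1 g2 : ℕ) (hij : i < j) :
    (YY (Yc n t h w1 st A Del) i g1 j g2).card * ((h - 2 * w1) * W) * d1 ≤ NB n A := by
  classical
  set Y := Yc n t h w1 st A Del with hY
  rcases (YY Y i g1 j g2).eq_empty_or_nonempty with h12 | h12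
  · rw [h12]; simp
  have hI : (Y i g1 ∩ Y j g2).Nonempty := by
    obtain ⟨c, hc⟩ := h12
    rw [YY, mem_filter] at hc
    obtain ⟨c0, h1, h2, -⟩ := hc.2.2
    exact ⟨c0, mem_inter.mpr ⟨h1, h2⟩⟩
  set c0 := (Y i g1 ∩ Y j g2).min' hI with hc0
  have hc0mem : c0 ∈ Y i g1 ∩ Y j g2 := min'_mem _ hI
  obtain ⟨h01, h02⟩ := mem_inter.mp hc0mem
  obtain ⟨-, h0n, -, h0D, -⟩ := mem_Yc.mp h01
  have hS : ∀ c ∈ YY Y i g1 j g2, c ∈ Y i g1 ∧ c ∉ Y j g2 ∧ c0 < c ∧ c < n := by
    intro c hc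
    rw [YY, mem_filter] at hc
    obtain ⟨c1, h1, h2, h3⟩ := hc.2.2
    have h4 : c0 ≤ c1 := min'_le _ _ (mem_inter.mpr ⟨h1, h2⟩)
    exact ⟨hc.1, hc.2.1, lt_of_le_of_lt h4 h3, (mem_Yc.mp hc.1).2.1⟩
  have h1 : (YY Y i g1 j g2).card * ((h - 2 * w1) * W) ≤
      ∑ c ∈ YY Y i g1 j g2, ncol n A c0 c := by
    rw [← smul_eq_mul, ← sum_const]
    refine sum_le_sum fun c hc => ?_
    obtain ⟨hc1, hc2, h0c, -⟩ := hS c hc
    exact cross_pointwise X hij h01 h02 hc1 hc2 h0c
  have h2 := sum_ncol_le_n1 n A c0 (YY Y i g1 j g2) fun c hc => (hS c hc).2.2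
  have h3 := X.hHv c0 h0n h0D
  calc (YY Y i g1 j g2).card * ((h - 2 * w1) * W) * d1 ≤ n1 n A c0 * d1 :=
        Nat.mul_le_mul_right _ (h1.trans h2)
    _ = d1 * n1 n A c0 := Nat.mul_comm _ _
    _ ≤ NB n A := h3

end Vale.Agent.Lib.P037.PB
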