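import Vale.Agent.Lib.P037.Gen2
import Vale.Agent.Lib.P037.Rank

/-!
# P037, pattern (b) = [[1,1],[1,0]]: definitions.  See notes/P037_blueprint2.md.
-/

namespace Vale.Agent.Lib.P037.PB

open Finset

/-- number of ordered copies of `[[1,1],[1,0]]`. -/
def NB (n : ℕ) (A : ℕ → ℕ → Bool) : ℕ := (copies2 n true true true false A).card

/-- number of copies of `[[1,1],[1,0]]` on the column pair `(c1,c2)` (pairs of rows `r1 < r2`). -/
def ncol (n : ℕ) (A : ℕ → ℕ → Bool) (c1 c2 : ℕ) : ℕ :=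
  ((range n ×ˢ range n).filter fun p =>
    p.1 < p.2 ∧ A p.1 c1 = true ∧ A p.1 c2 = true ∧ A p.2 c1 = true ∧ A p.2 c2 = false).card

/-- number of copies whose first column is `c`. -/
def n1 (n : ℕ) (A : ℕ → ℕ → Bool) (c : ℕ) : ℕ :=
  ∑ c' ∈ (range n).filter (fun c' => c < c'), ncol n A c c'

/-- the class `(j,g)`: rows of strip `j` whose start column is `g`. -/
def cl (n t : ℕ) (st : ℕ → ℕ) (j g : ℕ) : Finset ℕ := (strip n t j).filter fun r => st r = g

/-- number of zeros of column `c` in the class `(j,g)`. -/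
def zt (n t : ℕ) (st : ℕ → ℕ) (A : ℕ → ℕ → Bool) (j g c : ℕ) : ℕ :=
  ((cl n t st j g).filter fun r => A r c = false).card

/-- the rounded row of a heavy class `(j,g)`: surviving columns `c ≥ g` with fewer than `w1` zeros;
empty for light classes. -/
def Yc (n t h w1 : ℕ) (st : ℕ → ℕ) (A : ℕ → ℕ → Bool) (Del : Finset ℕ) (j g : ℕ) : Finset ℕ :=
  if h ≤ (cl n t st j g).card then
    (range n).filter fun c => g ≤ c ∧ c ∉ Del ∧ zt n t st A j g c < w1
  else ∅

/-- link digraph at time `j`: `c < c'` lie together in some class row of a strip `≤ j`. -/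
def link (Y : ℕ → ℕ → Finset ℕ) (j : ℕ) (c c' : ℕ) : Prop :=
  c < c' ∧ ∃ i, i ≤ j ∧ ∃ g, c ∈ Y i g ∧ c' ∈ Y i g

/-- `c'` lies in the closure of the class row `Y j g` under the links of time `j`. -/
def InCl (Y : ℕ → ℕ → Finset ℕ) (j g : ℕ) (c' : ℕ) : Prop :=
  ∃ c ∈ Y j g, Relation.ReflTransGen (link Y j) c c'

open Classical in
/-- the final matrix: row `r` is the closure of the row of its class `(r / t, st r)`. -/
noncomputable def Bm (t : ℕ) (st : ℕ → ℕ) (Y : ℕ → ℕ → Finset ℕ) (r c : ℕ) : Bool :=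
  decide (InCl Y (r / t) (st r) c)

/-- conflict columns of the class `(i,g1)` over the class `(j,g2)`. -/
def YY (Y : ℕ → ℕ → Finset ℕ) (i g1 j g2 : ℕ) : Finset ℕ :=
  (Y i g1).filter fun c => c ∉ Y j g2 ∧ ∃ c0 ∈ Y i g1, c0 ∈ Y j g2 ∧ c0 < c

/-- union of all the small conflict sets. -/
def Del1 (Y : ℕ → ℕ → Finset ℕ) (K : ℕ) (P : Finset ℕ) (ν d1 N : ℕ) : Finset ℕ :=
  ((range K ×ˢ P) ×ˢ (range K ×ˢ P)).biUnion fun x =>
    if (YY Y x.1.1 x.1.2 x.2.1 x.2.2).card * ν * d1 ≤ 2 * N then YY Y x.1.1 x.1.2 x.2.1 x.2.2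
    else ∅

/-- columns that are the first column of too many copies. -/
def Hv (n d1 : ℕ) (A : ℕ → ℕ → Bool) : Finset ℕ :=
  (range n).filter fun c => NB n A < d1 * n1 n A c

/-- columns with many copies together with some pivot. -/
def D2 (n M2 : ℕ) (A : ℕ → ℕ → Bool) (P : Finset ℕ) : Finset ℕ :=
  (range n).filter fun c => ∃ g ∈ P, g < c ∧ M2 ≤ ncol n A g c

/-- columns whose number of zeros in some class falls in the window `[w1, w1 + W)`. -/
def D3 (n t w1 W : ℕ) (st : ℕ → ℕ) (A : ℕ → ℕ → Bool) (P : Finset ℕ) : Finset ℕ :=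
  (range n).filter fun c => ∃ x ∈ range (n / t + 1) ×ˢ P,
    w1 ≤ zt n t st A x.1 x.2 c ∧ zt n t st A x.1 x.2 c < w1 + W

/-- the standing hypotheses on pivots `P`, starts `st` and deleted columns `Del`. -/
structure Ctx (n t h w1 W M2 d1 : ℕ) (A : ℕ → ℕ → Bool) (st : ℕ → ℕ) (P Del : Finset ℕ) :
    Prop where
  ht : 1 ≤ t
  hh : 1 ≤ h
  hw1 : 1 ≤ w1
  hP : P ⊆ range n
  hst1 : ∀ r, r < n → st r ∈ P ∨ st r = n
  hst2 : ∀ r, r < n → st r ∈ P → A r (st r) = true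
  hHv : ∀ c, c < n → c ∉ Del → d1 * n1 n A c ≤ NB n A
  hD2 : ∀ g ∈ P, ∀ c, c < n → g < c → c ∉ Del → ncol n A g c < M2
  hD3 : ∀ j g c, g ∈ P → c < n → c ∉ Del →
    zt n t st A j g c < w1 ∨ w1 + W ≤ zt n t st A j g c

end Vale.Agent.Lib.P037.PB
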