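import Vale.Agent.Lib.P037.PB.Cert

namespace Vale.Agent.Lib.P037.PB

open Finset

theorem Hv_card (n d1 : ℕ) (A : ℕ → ℕ → Bool) : (Hv n d1 A).card ≤ d1 := by
  have h1 : (Hv n d1 A).card * (NB n A + 1) ≤ ∑ c ∈ Hv n d1 A, d1 * n1 n A c := by
    rw [← smul_eq_mul, ← Finset.sum_const]
    refine Finset.sum_le_sum fun c hc => ?_
    exact (Finset.mem_filter.1 hc).2
  have h2 : ∑ c ∈ Hv n d1 A, d1 * n1 n A c ≤ d1 * NB n A := by
    rw [← sum_n1, Finset.mul_sum]
    exact Finset.sum_le_sum_of_subset (Finset.filter_subset _ _)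
  by_contra hcon
  have h3 : d1 + 1 ≤ (Hv n d1 A).card := by omega
  have h4 : (d1 + 1) * (NB n A + 1) ≤ (Hv n d1 A).card * (NB n A + 1) :=
    Nat.mul_le_mul_right _ h3
  nlinarith

theorem D2_card (n M2 d1 : ℕ) (A : ℕ → ℕ → Bool) (P : Finset ℕ)
    (hP : ∀ g ∈ P, d1 * n1 n A g ≤ NB n A) :
    (D2 n M2 A P).card * M2 * d1 ≤ P.card * NB n A := by
  set S : ℕ → Finset ℕ := fun g => (range n).filter fun c => g < c ∧ M2 ≤ ncol n A g c with hS
  have hsub : D2 n M2 A P ⊆ P.biUnion S := by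
    intro c hc
    obtain ⟨hc1, g, hg, h1, h2⟩ := Finset.mem_filter.1 hc
    exact Finset.mem_biUnion.2 ⟨g, hg, Finset.mem_filter.2 ⟨hc1, h1, h2⟩⟩
  have h1 : (D2 n M2 A P).card ≤ ∑ g ∈ P, (S g).card :=
    (Finset.card_le_card hsub).trans Finset.card_biUnion_le
  have h2 : ∀ g ∈ P, (S g).card * M2 * d1 ≤ NB n A := by
    intro g hg
    have a1 : (S g).card * M2 ≤ ∑ c ∈ S g, ncol n A g c := by
      rw [← smul_eq_mul, ← Finset.sum_const]
      exact Finset.sum_le_sum fun c hc => (Finset.mem_filter.1 hc).2.2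
    have a2 : ∑ c ∈ S g, ncol n A g c ≤ n1 n A g :=
      sum_ncol_le_n1 n A g (S g) fun c hc =>
        ⟨(Finset.mem_filter.1 hc).2.1, Finset.mem_range.1 (Finset.mem_filter.1 hc).1⟩
    calc (S g).card * M2 * d1 ≤ n1 n A g * d1 := Nat.mul_le_mul_right _ (a1.trans a2)
      _ = d1 * n1 n A g := Nat.mul_comm _ _
      _ ≤ NB n A := hP g hg
  calc (D2 n M2 A P).card * M2 * d1 ≤ (∑ g ∈ P, (S g).card) * M2 * d1 :=
        Nat.mul_le_mul_right _ (Nat.mul_le_mul_right _ h1)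
    _ = ∑ g ∈ P, (S g).card * M2 * d1 := by rw [Finset.sum_mul, Finset.sum_mul]
    _ ≤ ∑ _g ∈ P, NB n A := Finset.sum_le_sum h2
    _ = P.card * NB n A := by rw [Finset.sum_const, smul_eq_mul]

/-- at most one window contains a given number -/
theorem window_unique_delB {W z a b : ℕ} (ha : a * W ≤ z ∧ z < a * W + W)
    (hb : b * W ≤ z ∧ z < b * W + W) : a = b := by
  rcases lt_trichotomy a b with h | h | h
  · have : (a + 1) * W ≤ b * W := Nat.mul_le_mul_right _ h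
    rw [Nat.add_mul, Nat.one_mul] at this
    omega
  · exact h
  · have : (b + 1) * W ≤ a * W := Nat.mul_le_mul_right _ h
    rw [Nat.add_mul, Nat.one_mul] at this
    omega

/-- pigeonhole choice of the window `[σ W, σ W + W)`. -/
theorem exists_window (n t W q : ℕ) (hq : 1 ≤ q) (st : ℕ → ℕ) (A : ℕ → ℕ → Bool)
    (P : Finset ℕ) :
    ∃ σ, 1 ≤ σ ∧ σ ≤ q ∧ q * (D3 n t (σ * W) W st A P).card ≤ (n / t + 1) * P.card * n := by
  set U : Finset ((ℕ × ℕ) × ℕ) := (range (n / t + 1) ×ˢ P) ×ˢ range n with hU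
  set Tw : ℕ → Finset ((ℕ × ℕ) × ℕ) := fun σ => U.filter fun y =>
    σ * W ≤ zt n t st A y.1.1 y.1.2 y.2 ∧ zt n t st A y.1.1 y.1.2 y.2 < σ * W + W with hTw
  have hUcard : U.card = (n / t + 1) * P.card * n := by
    rw [hU, Finset.card_product, Finset.card_product, Finset.card_range, Finset.card_range]
  have h1 : ∀ σ, (D3 n t (σ * W) W st A P).card ≤ (Tw σ).card := by
    intro σ
    have hsub : D3 n t (σ * W) W st A P ⊆ (Tw σ).image Prod.snd := by
      intro c hc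
      obtain ⟨hc1, x, hx, h2⟩ := Finset.mem_filter.1 hc
      exact Finset.mem_image.2 ⟨(x, c),
        Finset.mem_filter.2 ⟨Finset.mem_product.2 ⟨hx, hc1⟩, h2⟩, rfl⟩
    exact (Finset.card_le_card hsub).trans Finset.card_image_le
  have h2 : ∑ σ ∈ Finset.Icc 1 q, (Tw σ).card ≤ U.card := by
    simp only [hTw, Finset.card_filter]
    rw [Finset.sum_comm, Finset.card_eq_sum_ones]
    refine Finset.sum_le_sum fun y _ => ?_
    rw [← Finset.card_filter]
    refine Finset.card_le_one.2 fun a ha b hb => ?_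
    exact window_unique_delB (Finset.mem_filter.1 ha).2 (Finset.mem_filter.1 hb).2
  by_contra hcon
  have h3 : ∀ σ ∈ Finset.Icc 1 q, U.card < q * (Tw σ).card := by
    intro σ hσ
    obtain ⟨a, b⟩ := Finset.mem_Icc.1 hσ
    by_contra h
    exact hcon ⟨σ, a, b, by
      rw [← hUcard]
      exact (Nat.mul_le_mul_left _ (h1 σ)).trans (not_lt.1 h)⟩
  have h4 : ∑ _σ ∈ Finset.Icc 1 q, U.card < ∑ σ ∈ Finset.Icc 1 q, q * (Tw σ).card :=
    Finset.sum_lt_sum_of_nonempty ⟨1, Finset.mem_Icc.2 ⟨le_rfl, hq⟩⟩ h3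
  rw [Finset.sum_const, smul_eq_mul, Nat.card_Icc, ← Finset.mul_sum] at h4
  have h5 : q * ∑ σ ∈ Finset.Icc 1 q, (Tw σ).card ≤ q * U.card := Nat.mul_le_mul_left _ h2
  simp only [Nat.add_sub_cancel] at h4
  omega

theorem Del1_card (Y : ℕ → ℕ → Finset ℕ) (K : ℕ) (P : Finset ℕ) (ν d1 N : ℕ) :
    (Del1 Y K P ν d1 N).card * ν * d1 ≤ (K * P.card) ^ 2 * (2 * N) := by
  unfold Del1
  set X := (range K ×ˢ P) ×ˢ (range K ×ˢ P) with hX
  have hXc : X.card = (K * P.card) ^ 2 := by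
    rw [hX, Finset.card_product, Finset.card_product, Finset.card_range, sq]
  set F : (ℕ × ℕ) × (ℕ × ℕ) → Finset ℕ := fun x =>
    if (YY Y x.1.1 x.1.2 x.2.1 x.2.2).card * ν * d1 ≤ 2 * N then YY Y x.1.1 x.1.2 x.2.1 x.2.2
    else ∅ with hF
  have h1 : (X.biUnion F).card ≤ ∑ x ∈ X, (F x).card := Finset.card_biUnion_le
  have h2 : ∀ x ∈ X, (F x).card * ν * d1 ≤ 2 * N := by
    intro x _
    simp only [hF]
    split_ifs with h
    · exact h
    · simp
  calc (X.biUnion F).card * ν * d1 ≤ (∑ x ∈ X, (F x).card) * ν * d1 :=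
        Nat.mul_le_mul_right _ (Nat.mul_le_mul_right _ h1)
    _ = ∑ x ∈ X, (F x).card * ν * d1 := by rw [Finset.sum_mul, Finset.sum_mul]
    _ ≤ ∑ _x ∈ X, 2 * N := Finset.sum_le_sum h2
    _ = (K * P.card) ^ 2 * (2 * N) := by rw [Finset.sum_const, smul_eq_mul, hXc]

theorem Ctx_of (n t h w1 W M2 d1 : ℕ) (A : ℕ → ℕ → Bool) (st : ℕ → ℕ) (P : Finset ℕ)
    (ht : 1 ≤ t) (hh : 1 ≤ h) (hw1 : 1 ≤ w1) (hP : P ⊆ range n)
    (hst1 : ∀ r, r < n → st r ∈ P ∨ st r = n)
    (hst2 : ∀ r, r < n → st r ∈ P → A r (st r) = true) :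
    Ctx n t h w1 W M2 d1 A st P (Hv n d1 A ∪ D2 n M2 A P ∪ D3 n t w1 W st A P) := by
  refine ⟨ht, hh, hw1, hP, hst1, hst2, ?_, ?_, ?_⟩
  · intro c hc hD
    by_contra hcon
    exact hD (Finset.mem_union_left _ (Finset.mem_union_left _
      (Finset.mem_filter.2 ⟨Finset.mem_range.2 hc, not_le.1 hcon⟩)))
  · intro g hg c hc hgc hD
    by_contra hcon
    exact hD (Finset.mem_union_left _ (Finset.mem_union_right _
      (Finset.mem_filter.2 ⟨Finset.mem_range.2 hc, g, hg, hgc, not_lt.1 hcon⟩)))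
  · intro j g c hg hc hD
    by_cases hj : j < n / t + 1
    · by_contra hcon
      rw [not_or, not_lt, not_le] at hcon
      exact hD (Finset.mem_union_right _ (Finset.mem_filter.2 ⟨Finset.mem_range.2 hc, (j, g),
        Finset.mem_product.2 ⟨Finset.mem_range.2 hj, hg⟩, hcon.1, hcon.2⟩))
    · left
      have hempty : cl n t st j g = ∅ := by
        rw [Finset.eq_empty_iff_forall_notMem]
        intro r hr
        have h1 := (Finset.mem_filter.1 hr).1
        obtain ⟨h2, h3⟩ := Finset.mem_filter.1 h1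
        have h4 : r / t ≤ n / t := Nat.div_le_div_right (Finset.mem_range.1 h2).le
        omega
      unfold zt
      rw [hempty]
      simp only [Finset.filter_empty, Finset.card_empty]
      omega

end Vale.Agent.Lib.P037.PB
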