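import Vale.Agent.Lib.P037.PB.Cert

namespace Vale.Agent.Lib.P037.PB

open Finset

/-- in a pivot class, two columns with few zeros and a column with many zeros: many rows show
`(1,1,0)`. -/
theorem same_key {n t h w1 W M2 d1 e : ℕ} {A : ℕ → ℕ → Bool} {st : ℕ → ℕ}
    {P Del : Finset ℕ} (X : Ctx n t h w1 W M2 d1 A st P Del) (he : 2 * M2 ≤ e ^ 2)
    {j g c0 c c' : ℕ} (hg : g ∈ P) (hg0 : g ≤ c0) (h0c : c0 < c) (hcn : c < n)
    (h0D : c0 ∉ Del) (hcD : c ∉ Del)
    (hz0 : zt n t st A j g c0 < w1) (hzc : zt n t st A j g c < w1)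
    (hzc' : w1 + W ≤ zt n t st A j g c') :
    W - e ≤ ((cl n t st j g).filter
      fun x => A x c0 = true ∧ A x c = true ∧ A x c' = false).card := by
  classical
  set C := cl n t st j g with hC
  have hone : ∀ x ∈ C, A x g = true := X.pivot_one hg
  -- the union of the two zero sets
  set U := C.filter fun x => A x c0 = false ∨ A x c = false with hU
  have hUcard : U.card ≤ w1 + e := by
    rcases Nat.eq_or_lt_of_le hg0 with hgc | hgc
    · -- `c0 = g`
      have hsub : U ⊆ C.filter fun x => A x c = false := by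
        intro x hx
        rw [hU, mem_filter] at hx
        rw [mem_filter]
        refine ⟨hx.1, ?_⟩
        rcases hx.2 with h1 | h1
        · rw [← hgc, hone x hx.1] at h1
          exact absurd h1 (by simp)
        · exact h1
      have h1 := card_le_card hsub
      have h2 : (C.filter fun x => A x c = false).card < w1 := hzc
      omega
    · have hnest := zeros_nested n A C (cl_subset_range n t st j g) g c0 c hone
      have h1 : ncol n A g c0 < M2 := X.hD2 g hg c0 (h0c.trans hcn) hgc h0D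
      have h2 : ncol n A g c < M2 := X.hD2 g hg c hcn (hgc.trans h0c) hcD
      set a := (C.filter fun x => A x c0 = false ∧ A x c = true).card with ha
      set b := (C.filter fun x => A x c0 = true ∧ A x c = false).card with hb
      have hab : a * b < e ^ 2 := by omega
      have hor : a < e ∨ b < e := by
        by_contra hcon
        push Not at hcon
        have : e * e ≤ a * b := Nat.mul_le_mul hcon.1 hcon.2
        rw [sq] at hab
        omega
      rcases hor with hlt | hlt
      · have hsub : U ⊆ (C.filter fun x => A x c = false) ∪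
            (C.filter fun x => A x c0 = false ∧ A x c = true) := by
          intro x hx
          rw [hU, mem_filter] at hx
          rw [mem_union, mem_filter, mem_filter]
          cases hxc : A x c with
          | false => exact Or.inl ⟨hx.1, rfl⟩
          | true =>
            rcases hx.2 with h3 | h3
            · exact Or.inr ⟨hx.1, h3, rfl⟩
            · rw [hxc] at h3
              exact absurd h3 (by simp)
        have h3 := (card_le_card hsub).trans (card_union_le _ _)
        have h4 : (C.filter fun x => A x c = false).card < w1 := hzc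
        omega
      · have hsub : U ⊆ (C.filter fun x => A x c0 = false) ∪
            (C.filter fun x => A x c0 = true ∧ A x c = false) := by
          intro x hx
          rw [hU, mem_filter] at hx
          rw [mem_union, mem_filter, mem_filter]
          cases hxc : A x c0 with
          | false => exact Or.inl ⟨hx.1, rfl⟩
          | true =>
            rcases hx.2 with h3 | h3
            · rw [hxc] at h3
              exact absurd h3 (by simp)
            · exact Or.inr ⟨hx.1, rfl, h3⟩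
        have h3 := (card_le_card hsub).trans (card_union_le _ _)
        have h4 : (C.filter fun x => A x c0 = false).card < w1 := hz0
        omega
  have hsub : (C.filter fun x => A x c' = false) ⊆
      (C.filter fun x => A x c0 = true ∧ A x c = true ∧ A x c' = false) ∪ U := by
    intro x hx
    rw [mem_filter] at hx
    rw [mem_union, mem_filter, hU, mem_filter]
    cases hx0 : A x c0 with
    | false => exact Or.inr ⟨hx.1, Or.inl rfl⟩
    | true =>
      cases hxc : A x c with
      | false => exact Or.inr ⟨hx.1, Or.inr rfl⟩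
      | true => exact Or.inl ⟨hx.1, rfl, rfl, hx.2⟩
  have h3 := (card_le_card hsub).trans (card_union_le _ _)
  have h4 : w1 + W ≤ (C.filter fun x => A x c' = false).card := hzc'
  omega

/-- a column that is not in the class row although it could be has many zeros -/
theorem same_many_zeros {n t h w1 W M2 d1 : ℕ} {A : ℕ → ℕ → Bool} {st : ℕ → ℕ}
    {P Del : Finset ℕ} (X : Ctx n t h w1 W M2 d1 A st P Del) {j g c0 c : ℕ}
    (h0 : c0 ∈ Yc n t h w1 st A Del j g) (h0c : c0 < c) (hcn : c < n) (hcD : c ∉ Del)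
    (hc : c ∉ Yc n t h w1 st A Del j g) : w1 + W ≤ zt n t st A j g c := by
  have hg := (X.pivot_of_mem h0).1
  obtain ⟨hh, -, hg0, -, -⟩ := mem_Yc.mp h0
  rcases X.hD3 j g c hg hcn hcD with h1 | h1
  · exact absurd (mem_Yc.mpr ⟨hh, hcn, hg0.trans h0c.le, hcD, h1⟩) hc
  · exact h1

/-- Blueprint (b), F2 (pointwise): a double conflict in one strip carries many copies. -/
theorem double_conflict {n t h w1 W M2 d1 e : ℕ} {A : ℕ → ℕ → Bool} {st : ℕ → ℕ}
    {P Del : Finset ℕ} (X : Ctx n t h w1 W M2 d1 A st P Del) (he : 2 * M2 ≤ e ^ 2)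
    {j g1 g2 c0 c c' : ℕ} (hne : g1 ≠ g2)
    (h01 : c0 ∈ Yc n t h w1 st A Del j g1) (h02 : c0 ∈ Yc n t h w1 st A Del j g2)
    (hc1 : c ∈ Yc n t h w1 st A Del j g1) (hc2 : c ∉ Yc n t h w1 st A Del j g2) (h0c : c0 < c)
    (hc'2 : c' ∈ Yc n t h w1 st A Del j g2) (hc'1 : c' ∉ Yc n t h w1 st A Del j g1)
    (h0c' : c0 < c') :
    (W - e) ^ 2 ≤ ncol n A c0 c + ncol n A c0 c' := by
  classical
  obtain ⟨-, -, hg10, h0D, hz10⟩ := mem_Yc.mp h01
  obtain ⟨-, -, hg20, -, hz20⟩ := mem_Yc.mp h02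
  obtain ⟨-, hcn, -, hcD, hz1c⟩ := mem_Yc.mp hc1
  obtain ⟨-, hc'n, -, hc'D, hz2c'⟩ := mem_Yc.mp hc'2
  have hg1 := (X.pivot_of_mem h01).1
  have hg2 := (X.pivot_of_mem h02).1
  have hz2c := same_many_zeros X h02 h0c hcn hcD hc2
  have hz1c' := same_many_zeros X h01 h0c' hc'n hc'D hc'1
  have hX := same_key X he hg1 hg10 h0c hcn h0D hcD hz10 hz1c hz1c'
  have hY := same_key X he hg2 hg20 h0c' hc'n h0D hc'D hz20 hz2c' hz2c
  have hY' : ((cl n t st j g2).filter
      fun x => A x c0 = true ∧ A x c' = true ∧ A x c = false) =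
      (cl n t st j g2).filter fun y => A y c0 = true ∧ A y c = false ∧ A y c' = true := by
    refine filter_congr fun x _ => ?_
    tauto
  rw [hY'] at hY
  have hadd := ncol_add_ge n A (cl n t st j g1) (cl n t st j g2) (cl_subset_range n t st j g1)
    (cl_subset_range n t st j g2) (cl_disjoint n t st j hne) c0 c c'
  calc (W - e) ^ 2 = (W - e) * (W - e) := sq _
    _ ≤ _ := Nat.mul_le_mul hX hY
    _ ≤ _ := hadd

/-- summation over a set of columns each carrying many copies with `c0` -/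
theorem same_sum_bound {n t h w1 W M2 d1 : ℕ} {A : ℕ → ℕ → Bool} {st : ℕ → ℕ}
    {P Del : Finset ℕ} (X : Ctx n t h w1 W M2 d1 A st P Del) (S : Finset ℕ) (c0 q : ℕ)
    (h0n : c0 < n) (h0D : c0 ∉ Del) (hS : ∀ c ∈ S, c0 < c ∧ c < n)
    (hq : ∀ c ∈ S, q ≤ 2 * ncol n A c0 c) : S.card * q * d1 ≤ 2 * NB n A := by
  have h1 : S.card * q ≤ ∑ c ∈ S, 2 * ncol n A c0 c := by
    rw [← smul_eq_mul, ← sum_const]
    exact sum_le_sum hq
  rw [← mul_sum] at h1
  have h2 := sum_ncol_le_n1 n A c0 S hS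
  have h3 := X.hHv c0 h0n h0D
  calc S.card * q * d1 ≤ (2 * n1 n A c0) * d1 :=
        Nat.mul_le_mul_right _ (h1.trans (Nat.mul_le_mul_left _ h2))
    _ = 2 * (d1 * n1 n A c0) := by ring
    _ ≤ 2 * NB n A := Nat.mul_le_mul_left _ h3

/-- Blueprint (b), F2: in one strip at least one of the two conflict sets is small. -/
theorem YY_same {n t h w1 W M2 d1 e : ℕ} {A : ℕ → ℕ → Bool} {st : ℕ → ℕ} {P Del : Finset ℕ}
    (X : Ctx n t h w1 W M2 d1 A st P Del) (he : 2 * M2 ≤ e ^ 2) (j g1 g2 : ℕ) :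
    (YY (Yc n t h w1 st A Del) j g1 j g2).card * (W - e) ^ 2 * d1 ≤ 2 * NB n A ∨
    (YY (Yc n t h w1 st A Del) j g2 j g1).card * (W - e) ^ 2 * d1 ≤ 2 * NB n A := by
  classical
  set Y := Yc n t h w1 st A Del with hY
  rcases (YY Y j g1 j g2).eq_empty_or_nonempty with h12 | h12
  · left; rw [h12]; simp
  rcases (YY Y j g2 j g1).eq_empty_or_nonempty with h21 | h21
  · right; rw [h21]; simp
  have hne : g1 ≠ g2 := by
    rintro rfl
    obtain ⟨c, hc⟩ := h12
    rw [YY, mem_filter] at hc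
    exact hc.2.1 hc.1
  -- the common part
  have hI : (Y j g1 ∩ Y j g2).Nonempty := by
    obtain ⟨c, hc⟩ := h12
    rw [YY, mem_filter] at hc
    obtain ⟨c0, h1, h2, -⟩ := hc.2.2
    exact ⟨c0, mem_inter.mpr ⟨h1, h2⟩⟩
  set c0 := (Y j g1 ∩ Y j g2).min' hI with hc0
  have hc0mem : c0 ∈ Y j g1 ∩ Y j g2 := min'_mem _ hI
  obtain ⟨h01, h02⟩ := mem_inter.mp hc0mem
  obtain ⟨-, h0n, -, h0D, -⟩ := mem_Yc.mp h01
  have hS12 : ∀ c ∈ YY Y j g1 j g2, c ∈ Y j g1 ∧ c ∉ Y j g2 ∧ c0 < c ∧ c < n := by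
    intro c hc
    rw [YY, mem_filter] at hc
    obtain ⟨c1, h1, h2, h3⟩ := hc.2.2
    have h4 : c0 ≤ c1 := min'_le _ _ (mem_inter.mpr ⟨h1, h2⟩)
    exact ⟨hc.1, hc.2.1, lt_of_le_of_lt h4 h3, (mem_Yc.mp hc.1).2.1⟩
  have hS21 : ∀ c ∈ YY Y j g2 j g1, c ∈ Y j g2 ∧ c ∉ Y j g1 ∧ c0 < c ∧ c < n := by
    intro c hc
    rw [YY, mem_filter] at hc
    obtain ⟨c1, h1, h2, h3⟩ := hc.2.2
    have h4 : c0 ≤ c1 := min'_le _ _ (mem_inter.mpr ⟨h2, h1⟩)
    exact ⟨hc.1, hc.2.1, lt_of_le_of_lt h4 h3, (mem_Yc.mp hc.1).2.1⟩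
  by_cases hall : ∀ c ∈ YY Y j g1 j g2, (W - e) ^ 2 ≤ 2 * ncol n A c0 c
  · left
    exact same_sum_bound X _ c0 _ h0n h0D (fun c hc => (hS12 c hc).2.2) hall
  · right
    push Not at hall
    obtain ⟨c, hc, hlt⟩ := hall
    obtain ⟨hc1, hc2, h0c, -⟩ := hS12 c hc
    refine same_sum_bound X _ c0 _ h0n h0D (fun c' hc' => (hS21 c' hc').2.2) ?_
    intro c' hc'
    obtain ⟨hc'2, hc'1, h0c', -⟩ := hS21 c' hc'
    have := double_conflict X he hne h01 h02 hc1 hc2 h0c hc'2 hc'1 h0c'
    omega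

end Vale.Agent.Lib.P037.PB
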