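import Vale.Agent.Lib.P037.PB.Closure
import Vale.Agent.Lib.P037.PB.Cross
import Vale.Agent.Lib.P037.PB.Same

namespace Vale.Agent.Lib.P037.PB

open Finset

theorem mem_Yc_union {n t h w1 : ℕ} {st : ℕ → ℕ} {A : ℕ → ℕ → Bool} {Del D : Finset ℕ}
    {j g c : ℕ} :
    c ∈ Yc n t h w1 st A (Del ∪ D) j g ↔ c ∈ Yc n t h w1 st A Del j g ∧ c ∉ D := by
  rw [mem_Yc, mem_Yc, mem_union, not_or]
  constructor
  · rintro ⟨a, b, c', ⟨d, e⟩, f⟩
    exact ⟨⟨a, b, c', d, f⟩, e⟩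
  · rintro ⟨⟨a, b, c', d, f⟩, e⟩
    exact ⟨a, b, c', ⟨d, e⟩, f⟩

/-- a small conflict set is deleted, hence the suffix property in that direction. -/
theorem pprop_suffix_of_small {n t h w1 W M2 d1 ν : ℕ} {A : ℕ → ℕ → Bool} {st : ℕ → ℕ}
    {P Del : Finset ℕ} (X : Ctx n t h w1 W M2 d1 A st P Del) {i j g1 g2 : ℕ}
    (hsmall : (YY (Yc n t h w1 st A Del) i g1 j g2).card * ν * d1 ≤ 2 * NB n A)
    {c1 c2 : ℕ} (h12 : c1 < c2)
    (h1 : c1 ∈ Yc n t h w1 st A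
      (Del ∪ Del1 (Yc n t h w1 st A Del) (n / t + 1) P ν d1 (NB n A)) i g1)
    (h2 : c2 ∈ Yc n t h w1 st A
      (Del ∪ Del1 (Yc n t h w1 st A Del) (n / t + 1) P ν d1 (NB n A)) i g1)
    (h3 : c1 ∈ Yc n t h w1 st A
      (Del ∪ Del1 (Yc n t h w1 st A Del) (n / t + 1) P ν d1 (NB n A)) j g2) :
    c2 ∈ Yc n t h w1 st A
      (Del ∪ Del1 (Yc n t h w1 st A Del) (n / t + 1) P ν d1 (NB n A)) j g2 := by
  rw [mem_Yc_union] at h1 h2 h3 ⊢
  refine ⟨?_, h2.2⟩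
  by_contra hcon
  apply h2.2
  have hYY : c2 ∈ YY (Yc n t h w1 st A Del) i g1 j g2 := by
    unfold YY
    rw [mem_filter]
    exact ⟨h2.1, hcon, c1, h1.1, h3.1, h12⟩
  have p1 := X.pivot_of_mem h1.1
  have p2 := X.pivot_of_mem h3.1
  unfold Del1
  rw [mem_biUnion]
  refine ⟨((i, g1), (j, g2)), ?_, ?_⟩
  · simp only [mem_product, mem_range]
    exact ⟨⟨p1.2, p1.1⟩, ⟨p2.2, p2.1⟩⟩
  · simp only
    rw [if_pos hsmall]
    exact hYY

/-- Blueprint (b), Step G. -/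
theorem Y1_cross {n t h w1 W M2 d1 ν : ℕ} {A : ℕ → ℕ → Bool} {st : ℕ → ℕ} {P Del : Finset ℕ}
    (X : Ctx n t h w1 W M2 d1 A st P Del) (hν : ν ≤ 2 * ((h - 2 * w1) * W)) :
    PCross (Yc n t h w1 st A
      (Del ∪ Del1 (Yc n t h w1 st A Del) (n / t + 1) P ν d1 (NB n A))) := by
  intro i j g1 g2 c1 c2 hij h12 h1 h2 h3
  have hs := YY_cross X g1 g2 hij
  have hsmall : (YY (Yc n t h w1 st A Del) i g1 j g2).card * ν * d1 ≤ 2 * NB n A := by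
    calc (YY (Yc n t h w1 st A Del) i g1 j g2).card * ν * d1
        ≤ (YY (Yc n t h w1 st A Del) i g1 j g2).card * (2 * ((h - 2 * w1) * W)) * d1 :=
          Nat.mul_le_mul_right _ (Nat.mul_le_mul_left _ hν)
      _ = 2 * ((YY (Yc n t h w1 st A Del) i g1 j g2).card * ((h - 2 * w1) * W) * d1) := by ring
      _ ≤ 2 * NB n A := Nat.mul_le_mul_left _ hs
  exact pprop_suffix_of_small X hsmall h12 h1 h2 h3

/-- Blueprint (b), Step G. -/
theorem Y1_same {n t h w1 W M2 d1 e : ℕ} {A : ℕ → ℕ → Bool} {st : ℕ → ℕ} {P Del : Finset ℕ}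
    (X : Ctx n t h w1 W M2 d1 A st P Del) (he : 2 * M2 ≤ e ^ 2) :
    PSame (Yc n t h w1 st A
      (Del ∪ Del1 (Yc n t h w1 st A Del) (n / t + 1) P ((W - e) ^ 2) d1 (NB n A))) := by
  intro j g1 g2
  rcases YY_same X he j g1 g2 with hs | hs
  · left
    intro c1 c2 h12 h1 h2 h3
    exact pprop_suffix_of_small X hs h12 h1 h2 h3
  · right
    intro c1 c2 h12 h1 h2 h3
    exact pprop_suffix_of_small X hs h12 h1 h2 h3

end Vale.Agent.Lib.P037.PB
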