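import Vale.Agent.Lib.P037.PB.Defs

namespace Vale.Agent.Lib.P037.PB

open Finset

/-- arithmetic core of one greedy step -/
private theorem pivot_step_arith (u' k n m p Ic : ℕ) (hn : 0 < n) (hmn : m ≤ n)
    (H1 : (u' + k) * (n + p * m) ≤ n * Ic) (H2 : (u' + k) * m ≤ n * k) :
    u' * (n + (p + 1) * m) ≤ n * Ic := by
  obtain ⟨e, rfl⟩ := Nat.exists_eq_add_of_le hmn
  apply Nat.le_of_mul_le_mul_left _ hn
  -- `n u' ≤ (u'+k) e`
  have h3 : (m + e) * u' ≤ (u' + k) * e := by nlinarith
  calc (m + e) * (u' * (m + e + (p + 1) * m))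
      = ((m + e) * u') * (m + e + (p + 1) * m) := by ring
    _ ≤ ((u' + k) * e) * (m + e + (p + 1) * m) := Nat.mul_le_mul_right _ h3
    _ ≤ (m + e) * ((u' + k) * (m + e + p * m)) := by
        have : e * (m + e + (p + 1) * m) ≤ (m + e) * (m + e + p * m) := by
          have e1 : (m + e) * (m + e + p * m) = e * (m + e + (p + 1) * m) + (p + 1) * m * m := by
            ring
          rw [e1]
          exact Nat.le_add_right _ _
        calc ((u' + k) * e) * (m + e + (p + 1) * m)
            = (u' + k) * (e * (m + e + (p + 1) * m)) := by ring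
          _ ≤ (u' + k) * ((m + e) * (m + e + p * m)) := Nat.mul_le_mul_left _ this
          _ = (m + e) * ((u' + k) * (m + e + p * m)) := by ring
    _ ≤ (m + e) * ((m + e) * Ic) := Nat.mul_le_mul_left _ H1

/-- double counting: some column lies in many of the sets -/
private theorem pivot_exists_popular (n m : ℕ) (U : Finset ℕ) (F : ℕ → Finset ℕ)
    (hF : ∀ r ∈ U, F r ⊆ range n ∧ m ≤ (F r).card) (hn : 0 < n) :
    ∃ c ∈ range n, U.card * m ≤ n * (U.filter fun r => c ∈ F r).card := by
  by_contra hcon
  push Not at hcon
  have h1 : ∑ c ∈ range n, (U.filter fun r => c ∈ F r).card = ∑ r ∈ U, (F r).card := by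
    simp only [Finset.card_filter]
    rw [Finset.sum_comm]
    refine Finset.sum_congr rfl fun r hr => ?_
    rw [← Finset.card_filter]
    congr 1
    ext c
    simp only [Finset.mem_filter]
    exact ⟨fun h => h.2, fun h => ⟨(hF r hr).1 h, h⟩⟩
  have h2 : U.card * m ≤ ∑ r ∈ U, (F r).card := by
    rw [← smul_eq_mul]
    exact Finset.card_nsmul_le_sum U _ m fun r hr => (hF r hr).2
  have h3 : ∑ c ∈ range n, n * (U.filter fun r => c ∈ F r).card
      < ∑ c ∈ range n, U.card * m :=
    Finset.sum_lt_sum_of_nonempty ⟨0, Finset.mem_range.mpr hn⟩ hcon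
  rw [← Finset.mul_sum, h1, Finset.sum_const, Finset.card_range, smul_eq_mul] at h3
  have := Nat.mul_le_mul_left n h2
  omega

/-- greedy hitting set: `F r` (`r ∈ I`) are subsets of `range n` with at least `m` elements. -/
theorem greedy_hit (n m : ℕ) (I : Finset ℕ) (F : ℕ → Finset ℕ)
    (hF : ∀ r ∈ I, F r ⊆ range n ∧ m ≤ (F r).card) (p : ℕ) :
    ∃ P : Finset ℕ, P ⊆ I.biUnion F ∧ P.card ≤ p ∧
      (I.filter fun r => Disjoint (F r) P).card * (n + p * m) ≤ n * I.card := by
  induction p with
  | zero =>
    refine ⟨∅, Finset.empty_subset _, by simp, ?_⟩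
    simp [Nat.mul_comm]
  | succ p ih =>
    obtain ⟨P, hP, hPc, hu⟩ := ih
    set U := I.filter fun r => Disjoint (F r) P with hU
    rcases U.eq_empty_or_nonempty with hUe | ⟨r0, hr0⟩
    · refine ⟨P, hP, by omega, ?_⟩
      rw [← hU, hUe]
      simp
    rcases Nat.eq_zero_or_pos m with hm | hm
    · subst hm
      refine ⟨P, hP, by omega, ?_⟩
      simpa using hu
    have hr0I : r0 ∈ I := (Finset.mem_filter.mp hr0).1
    have hmn : m ≤ n := by
      have h1 := (hF r0 hr0I).2
      have h2 := Finset.card_le_card (hF r0 hr0I).1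
      rw [Finset.card_range] at h2
      omega
    have hn : 0 < n := by omega
    have hFU : ∀ r ∈ U, F r ⊆ range n ∧ m ≤ (F r).card :=
      fun r hr => hF r (Finset.mem_filter.mp hr).1
    obtain ⟨c, hc, hpop⟩ := pivot_exists_popular n m U F hFU hn
    have hkpos : 0 < (U.filter fun r => c ∈ F r).card := by
      by_contra h0
      have h0' : (U.filter fun r => c ∈ F r).card = 0 := by omega
      rw [h0', Nat.mul_zero] at hpop
      have : 0 < U.card * m := Nat.mul_pos (Finset.card_pos.mpr ⟨r0, hr0⟩) hm
      omega
    obtain ⟨r1, hr1⟩ := Finset.card_pos.mp hkpos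
    have hr1U : r1 ∈ U := (Finset.mem_filter.mp hr1).1
    have hr1c : c ∈ F r1 := (Finset.mem_filter.mp hr1).2
    refine ⟨insert c P, ?_, ?_, ?_⟩
    · intro x hx
      rcases Finset.mem_insert.mp hx with rfl | hx
      · exact Finset.mem_biUnion.mpr ⟨r1, (Finset.mem_filter.mp hr1U).1, hr1c⟩
      · exact hP hx
    · exact (Finset.card_insert_le _ _).trans (by omega)
    · have hsplit : (I.filter fun r => Disjoint (F r) (insert c P))
          = U.filter fun r => ¬ c ∈ F r := by
        ext r
        simp only [hU, Finset.mem_filter, Finset.disjoint_insert_right]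
        tauto
      have hcard : (U.filter fun r => c ∈ F r).card + (U.filter fun r => ¬ c ∈ F r).card
          = U.card := Finset.card_filter_add_card_filter_not _
      rw [hsplit]
      apply pivot_step_arith _ (U.filter fun r => c ∈ F r).card n m p I.card hn hmn
      · rw [Nat.add_comm, hcard]; exact hu
      · rw [Nat.add_comm, hcard]; exact hpop

/-- ones of row `r` outside `H` -/
private def pivO (n : ℕ) (A : ℕ → ℕ → Bool) (H : Finset ℕ) (r : ℕ) : Finset ℕ :=
  (range n).filter fun c => A r c = true ∧ c ∉ H

/-- the first `m` ones of row `r` outside `H` -/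
private def pivF (n m : ℕ) (A : ℕ → ℕ → Bool) (H : Finset ℕ) (r : ℕ) : Finset ℕ :=
  (pivO n A H r).filter fun c => rk (pivO n A H r) id c ≤ m

private theorem pivF_sub (n m : ℕ) (A : ℕ → ℕ → Bool) (H : Finset ℕ) (r : ℕ) :
    pivF n m A H r ⊆ range n \ H := by
  intro c hc
  have h1 := (Finset.mem_filter.mp hc).1
  have h2 := Finset.mem_filter.mp h1
  exact Finset.mem_sdiff.mpr ⟨h2.1, h2.2.2⟩

private theorem pivF_one (n m : ℕ) (A : ℕ → ℕ → Bool) (H : Finset ℕ) (r c : ℕ)
    (hc : c ∈ pivF n m A H r) : A r c = true :=
  (Finset.mem_filter.mp (Finset.mem_filter.mp hc).1).2.1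

/-- ones of a row: those outside `H` plus at most `|H|` -/
private theorem piv_ones_le (n : ℕ) (A : ℕ → ℕ → Bool) (H : Finset ℕ) (r b : ℕ) (hb : b ≤ n) :
    ((range b).filter fun c => A r c = true).card
      ≤ ((pivO n A H r).filter fun c => c < b).card + H.card := by
  refine le_trans (Finset.card_le_card ?_) (Finset.card_union_le _ _)
  intro c hc
  obtain ⟨hc1, hc2⟩ := Finset.mem_filter.mp hc
  have hcb : c < b := Finset.mem_range.mp hc1
  by_cases hH : c ∈ H
  · exact Finset.mem_union_right _ hH
  · refine Finset.mem_union_left _ (Finset.mem_filter.mpr ⟨?_, hcb⟩)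
    exact Finset.mem_filter.mpr ⟨Finset.mem_range.mpr (by omega), hc2, hH⟩

/-- Blueprint (b), Step B: pivots and starts. -/
theorem exists_pivots (n m p d1 : ℕ) (A : ℕ → ℕ → Bool) (H : Finset ℕ) (hH : H.card ≤ d1) :
    ∃ (P : Finset ℕ) (st : ℕ → ℕ), P ⊆ range n \ H ∧ P.card ≤ p ∧
      (∀ r, r < n → st r ∈ P ∨ st r = n) ∧
      (∀ r, r < n → st r ∈ P → A r (st r) = true) ∧
      (∀ r, r < n → st r ∈ P → ((range (st r)).filter fun c => A r c = true).card ≤ m + d1) ∧
      (n + p * m) * ((range n ×ˢ range n).filter fun x => st x.1 = n ∧ A x.1 x.2 = true).card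
        ≤ (n + p * m) * (n * (m + d1)) + n ^ 3 := by
  classical
  set I : Finset ℕ := (range n).filter fun r => m ≤ (pivO n A H r).card with hI
  have hF : ∀ r ∈ I, pivF n m A H r ⊆ range n ∧ m ≤ (pivF n m A H r).card := by
    intro r hr
    refine ⟨fun c hc => (Finset.mem_sdiff.mp (pivF_sub n m A H r hc)).1, ?_⟩
    have := card_rk_le (pivO n A H r) id (Function.injective_id.injOn) (Finset.mem_filter.mp hr).2
    exact this.ge
  obtain ⟨P, hP, hPc, hu⟩ := greedy_hit n m I (pivF n m A H) hF p
  have hPsub : P ⊆ range n \ H := by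
    intro c hc
    obtain ⟨r, _, hcr⟩ := Finset.mem_biUnion.mp (hP hc)
    exact pivF_sub n m A H r hcr
  have hnP : n ∉ P := fun h => by
    have := (Finset.mem_sdiff.mp (hPsub h)).1
    simp at this
  let st : ℕ → ℕ := fun r =>
    if h : (pivF n m A H r ∩ P).Nonempty then h.choose else n
  have hst1 : ∀ r, (pivF n m A H r ∩ P).Nonempty → st r ∈ pivF n m A H r ∩ P := by
    intro r h
    simp only [st, dif_pos h]
    exact h.choose_spec
  have hst2 : ∀ r, ¬ (pivF n m A H r ∩ P).Nonempty → st r = n := by
    intro r h
    simp only [st, dif_neg h]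
  have hst3 : ∀ r, st r ∈ P → st r ∈ pivF n m A H r := by
    intro r h
    by_cases hne : (pivF n m A H r ∩ P).Nonempty
    · exact (Finset.mem_inter.mp (hst1 r hne)).1
    · rw [hst2 r hne] at h
      exact absurd h hnP
  refine ⟨P, st, hPsub, hPc, ?_, ?_, ?_, ?_⟩
  · intro r _
    by_cases hne : (pivF n m A H r ∩ P).Nonempty
    · exact Or.inl (Finset.mem_inter.mp (hst1 r hne)).2
    · exact Or.inr (hst2 r hne)
  · intro r _ h
    exact pivF_one n m A H r _ (hst3 r h)
  · intro r _ h
    have h1 := hst3 r h
    have hlt : st r < n := Finset.mem_range.mp (Finset.mem_sdiff.mp (hPsub h)).1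
    have h2 := piv_ones_le n A H r (st r) hlt.le
    have h3 : ((pivO n A H r).filter fun c => c < st r).card ≤ m := by
      refine le_trans (Finset.card_le_card ?_) (Finset.mem_filter.mp h1).2
      intro c hc
      obtain ⟨hc1, hc2⟩ := Finset.mem_filter.mp hc
      exact Finset.mem_filter.mpr ⟨hc1, hc2.le⟩
    omega
  · set U := I.filter fun r => Disjoint (pivF n m A H r) P with hU
    -- rowwise bound
    have hrow : ∀ r ∈ range n, ((range n).filter fun c => st r = n ∧ A r c = true).card
        ≤ (m + d1) + if r ∈ U then n else 0 := by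
      intro r hr
      by_cases hrU : r ∈ U
      · rw [if_pos hrU]
        have := Finset.card_filter_le (range n) fun c => st r = n ∧ A r c = true
        rw [Finset.card_range] at this
        omega
      · rw [if_neg hrU, Nat.add_zero]
        by_cases hs : st r = n
        · -- the row is not hit, so it is not in `I`
          have hdis : Disjoint (pivF n m A H r) P := by
            rw [Finset.disjoint_iff_inter_eq_empty, ← Finset.not_nonempty_iff_eq_empty]
            intro hne
            have := (Finset.mem_inter.mp (hst1 r hne)).2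
            rw [hs] at this
            exact hnP this
          have hrI : r ∉ I := fun h => hrU (Finset.mem_filter.mpr ⟨h, hdis⟩)
          have hsmall : (pivO n A H r).card < m := by
            by_contra hcon
            exact hrI (Finset.mem_filter.mpr ⟨hr, by omega⟩)
          have h2 := piv_ones_le n A H r n le_rfl
          have h3 : ((pivO n A H r).filter fun c => c < n).card ≤ (pivO n A H r).card :=
            Finset.card_filter_le _ _
          have h4 : ((range n).filter fun c => st r = n ∧ A r c = true).card
              ≤ ((range n).filter fun c => A r c = true).card := by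
            refine Finset.card_le_card ?_
            intro c hc
            obtain ⟨hc1, hc2⟩ := Finset.mem_filter.mp hc
            exact Finset.mem_filter.mpr ⟨hc1, hc2.2⟩
          omega
        · have : ((range n).filter fun c => st r = n ∧ A r c = true) = ∅ := by
            apply Finset.filter_false_of_mem
            intro c _ h
            exact hs h.1
          rw [this]
          simp
    have hcount : ((range n ×ˢ range n).filter fun x => st x.1 = n ∧ A x.1 x.2 = true).card
        ≤ n * (m + d1) + U.card * n := by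
      have e1 : ((range n ×ˢ range n).filter fun x => st x.1 = n ∧ A x.1 x.2 = true).card
          = ∑ r ∈ range n, ((range n).filter fun c => st r = n ∧ A r c = true).card := by
        simp only [Finset.card_filter]
        rw [Finset.sum_product]
      rw [e1]
      refine (Finset.sum_le_sum hrow).trans ?_
      rw [Finset.sum_add_distrib, Finset.sum_const, Finset.card_range, smul_eq_mul,
        ← Finset.sum_filter, Finset.sum_const, smul_eq_mul]
      have hUsub : ((range n).filter fun r => r ∈ U).card ≤ U.card := by
        refine Finset.card_le_card ?_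
        intro r hr
        exact (Finset.mem_filter.mp hr).2
      have := Nat.mul_le_mul_right n hUsub
      omega
    have hIc : I.card ≤ n := by
      have := Finset.card_filter_le (range n) fun r => m ≤ (pivO n A H r).card
      rwa [Finset.card_range] at this
    calc (n + p * m) * ((range n ×ˢ range n).filter fun x => st x.1 = n ∧ A x.1 x.2 = true).card
        ≤ (n + p * m) * (n * (m + d1) + U.card * n) := Nat.mul_le_mul_left _ hcount
      _ = (n + p * m) * (n * (m + d1)) + (U.card * (n + p * m)) * n := by ring
      _ ≤ (n + p * m) * (n * (m + d1)) + (n * I.card) * n :=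
          Nat.add_le_add_left (Nat.mul_le_mul_right _ hu) _
      _ ≤ (n + p * m) * (n * (m + d1)) + (n * n) * n :=
          Nat.add_le_add_left (Nat.mul_le_mul_right _ (Nat.mul_le_mul_left _ hIc)) _
      _ = (n + p * m) * (n * (m + d1)) + n ^ 3 := by ring

end Vale.Agent.Lib.P037.PB
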