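import Vale.Agent.Lib.P037.PB.Account4
import Vale.Agent.Lib.P037.PB.PProp
import Vale.Agent.Lib.P037.PB.DelB
import Vale.Agent.Lib.P037.PB.Pivot

namespace Vale.Agent.Lib.P037.PB

open Finset

/-- The master inequality for the pattern `[[1,1],[1,0]]` with free parameters. -/
theorem masterB (n t h W q M2 e d1 m p : ℕ) (ht : 1 ≤ t) (hh : 1 ≤ h) (hW : 1 ≤ W) (hq : 1 ≤ q)
    (he : 2 * M2 ≤ e ^ 2) (hM2 : M2 ≤ (h - q * W) * W)
    (hν : (W - e) ^ 2 ≤ 2 * ((h - 2 * (q * W)) * W)) (A : ℕ → ℕ → Bool) :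
    ∃ B : ℕ → ℕ → Bool, free2 n true true true false B ∧ ∃ w1 pc DC dl2 dl3 dl1 : ℕ,
      W ≤ w1 ∧ w1 ≤ q * W ∧ pc ≤ p ∧
      (n + p * m) * DC ≤ (n + p * m) * (n * (m + d1)) + n ^ 3 ∧
      dl2 * M2 * d1 ≤ pc * NB n A ∧
      q * dl3 ≤ (n / t + 1) * pc * n ∧
      dl1 * (W - e) ^ 2 * d1 ≤ ((n / t + 1) * pc) ^ 2 * (2 * NB n A) ∧
      (w1 + W) * hamN n A B ≤
        (w1 + W) * (DC + (n / t + 1) * pc * h * n + n * (m + d1) + n * (d1 + dl2 + dl3 + dl1)
          + (n / t + 1) * pc * n * w1 + pc * n * t)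
        + pc * n * (t * (w1 + W) + M2) := by
  obtain ⟨P, st, hP, hPc, hst1, hst2, hpre, hDC⟩ :=
    exists_pivots n m p d1 A (Hv n d1 A) (Hv_card n d1 A)
  obtain ⟨σ, hσ1, hσq, hD3⟩ := exists_window n t W q hq st A P
  have hPn : P ⊆ range n := fun g hg => (mem_sdiff.mp (hP hg)).1
  have hw1W : W ≤ σ * W := Nat.le_mul_of_pos_left W hσ1
  have hw1q : σ * W ≤ q * W := Nat.mul_le_mul_right W hσq
  have hw1 : 1 ≤ σ * W := le_trans hW hw1W
  set w1 := σ * W with hw1def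
  set Del0 := Hv n d1 A ∪ D2 n M2 A P ∪ D3 n t w1 W st A P with hDel0
  have X0 : Ctx n t h w1 W M2 d1 A st P Del0 :=
    Ctx_of n t h w1 W M2 d1 A st P ht hh hw1 hPn hst1 hst2
  set D1 := Del1 (Yc n t h w1 st A Del0) (n / t + 1) P ((W - e) ^ 2) d1 (NB n A) with hD1
  have X1 : Ctx n t h w1 W M2 d1 A st P (Del0 ∪ D1) := X0.mono subset_union_left
  have hν' : (W - e) ^ 2 ≤ 2 * ((h - 2 * w1) * W) := by
    refine hν.trans ?_
    have : h - 2 * (q * W) ≤ h - 2 * w1 := by omega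
    exact Nat.mul_le_mul_left 2 (Nat.mul_le_mul_right W this)
  have hM2' : M2 ≤ (h - w1) * (w1 + W) := by
    refine hM2.trans ?_
    have h1 : h - q * W ≤ h - w1 := by omega
    exact Nat.mul_le_mul h1 (Nat.le_add_left W w1)
  have hcross : PCross (Yc n t h w1 st A (Del0 ∪ D1)) := Y1_cross X0 hν'
  have hsame : PSame (Yc n t h w1 st A (Del0 ∪ D1)) := Y1_same X0 he
  refine ⟨Bm t st (Yc n t h w1 st A (Del0 ∪ D1)), Bm_free n t st _ hcross hsame,
    w1, P.card, _, (D2 n M2 A P).card, (D3 n t w1 W st A P).card, D1.card,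
    hw1W, hw1q, hPc, hDC, ?_, hD3, Del1_card _ _ _ _ _ _, ?_⟩
  · refine D2_card n M2 d1 A P ?_
    intro g hg
    have hg' := mem_sdiff.mp (hP hg)
    by_contra hcon
    exact hg'.2 (by
      unfold Hv
      exact mem_filter.mpr ⟨hg'.1, not_le.mp hcon⟩)
  · refine (ham_Bm_le X1 hM2' hcross (m + d1) hpre).trans ?_
    have hcard : (Del0 ∪ D1).card ≤
        d1 + (D2 n M2 A P).card + (D3 n t w1 W st A P).card + D1.card := by
      refine (card_union_le _ _).trans ?_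
      refine Nat.add_le_add_right ?_ _
      refine (card_union_le _ _).trans ?_
      refine Nat.add_le_add_right ?_ _
      refine (card_union_le _ _).trans ?_
      exact Nat.add_le_add_right (Hv_card n d1 A) _
    gcongr

end Vale.Agent.Lib.P037.PB
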